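import Mathlib

/-!
# P200: applying a `K`-linear functional of `L` to the coefficients of a polynomial over `L`
-/

namespace Vale.Agent.Lib.P200

open MvPolynomial

variable {K L : Type} [Field K] [Field L] [Algebra K L] {n : ℕ}

/-- apply the `K`-linear functional `l : L → K` to all coefficients -/
noncomputable def lam (l : L →ₗ[K] K) :
    MvPolynomial (Fin n) L →ₗ[K] MvPolynomial (Fin n) K :=
  (AddMonoidAlgebra.coeffLinearEquiv K).symm.toLinearMap ∘ₗ Finsupp.mapRange.linearMap l ∘ₗ
    (AddMonoidAlgebra.coeffLinearEquiv K).toLinearMap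

theorem coeff_lam (l : L →ₗ[K] K) (p : MvPolynomial (Fin n) L) (m : Fin n →₀ ℕ) :
    coeff m (lam l p) = l (coeff m p) := by
  rfl

/-- compare coefficients: `MvPolynomial.coeff_mul`, `coeff_map`, `coeff_lam`, `map_sum`,
`Algebra.smul_def`, `map_smul` -/
theorem lam_map_mul (l : L →ₗ[K] K) (p : MvPolynomial (Fin n) K) (h : MvPolynomial (Fin n) L) :
    lam l (map (algebraMap K L) p * h) = p * lam l h := by
  ext m
  rw [coeff_lam, coeff_mul, coeff_mul, map_sum]
  apply Finset.sum_congr rfl
  intro x _
  rw [coeff_map, coeff_lam, ← Algebra.smul_def, map_smul, smul_eq_mul]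

/-- compare coefficients: `MvPolynomial.coeff_monomial_mul'` -/
theorem lam_monomial_mul (l : L →ₗ[K] K) (m : Fin n →₀ ℕ) (c : L) (h : MvPolynomial (Fin n) L) :
    lam l (monomial m c * h) = monomial m 1 * lam (l ∘ₗ LinearMap.mulLeft K c) h := by
  ext k
  rw [coeff_lam, coeff_monomial_mul', coeff_monomial_mul']
  split_ifs with hk
  · rw [coeff_lam, one_mul]
    rfl
  · exact map_zero l

end Vale.Agent.Lib.P200
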