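import Vale.Agent.Lib.P200.BC1

/-!
# P200: reconstruction of a polynomial over `L` from its images under functionals
-/

namespace Vale.Agent.Lib.P200

open MvPolynomial

variable {K L : Type} [Field K] [Field L] [Algebra K L] {n : ℕ}

/-- Let `b` be a `K`-basis of `L` (`Module.Basis.ofVectorSpace K L`) and
`T = h.support.biUnion (fun m => (b.repr (coeff m h)).support)`.  Then
`h = ∑ s ∈ T, C (b s) * map (algebraMap K L) (lam (b.coord s) h)`: compare coefficients
(`coeff_sum`, `coeff_C_mul`, `coeff_map`, `coeff_lam`), use `b.linearCombination_repr` /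
`Finsupp.sum_of_support_subset` and `Algebra.smul_def`.  Every summand lies in the ideal
(`Ideal.mem_map_of_mem`, `Ideal.mul_mem_left`, `Ideal.sum_mem`). -/
theorem mem_map_of_lam_mem (J : Ideal (MvPolynomial (Fin n) K)) (h : MvPolynomial (Fin n) L)
    (hh : ∀ l : L →ₗ[K] K, lam l h ∈ J) : h ∈ Ideal.map (map (algebraMap K L)) J := by
  classical
  let b := Module.Basis.ofVectorSpace K L
  let T := h.support.biUnion (fun m => (b.repr (coeff m h)).support)
  have hsum : h = ∑ s ∈ T, C (b s) * map (algebraMap K L) (lam (b.coord s) h) := by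
    ext m
    rw [coeff_sum]
    simp only [coeff_C_mul, coeff_map, coeff_lam, Module.Basis.coord_apply]
    have hsub : (b.repr (coeff m h)).support ⊆ T := by
      by_cases hm : m ∈ h.support
      · exact Finset.subset_biUnion_of_mem (fun m => (b.repr (coeff m h)).support) hm
      · rw [notMem_support_iff.1 hm]
        simp
    conv_lhs =>
      rw [← b.linearCombination_repr (coeff m h), Finsupp.linearCombination_apply,
        Finsupp.sum_of_support_subset _ hsub _ (by intro i _; simp)]
    apply Finset.sum_congr rfl
    intro s _
    rw [Algebra.smul_def, mul_comm]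
  rw [hsum]
  apply Ideal.sum_mem
  intro s _
  apply Ideal.mul_mem_left
  exact Ideal.mem_map_of_mem _ (hh _)

end Vale.Agent.Lib.P200
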