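import Mathlib

/-!
# P200 (Eisenbud-Green-Harris): linear syzygies on a space of forms

`Pol K n` is the polynomial ring in `n` variables.  A linear syzygy on a `K`-subspace `V` of the
polynomial ring is a tuple `v = (v_1, ..., v_n)` of elements of `V` with `∑ X_j v_j = 0`
(write a relation `∑ l_k h_k = 0` with linear forms `l_k = ∑ r_kj X_j` as
`∑_j X_j (∑_k r_kj h_k) = 0`).
-/

namespace Vale.Agent.Lib.P200

open MvPolynomial

/-- the polynomial ring in `n` variables -/
abbrev Pol (K : Type) [Field K] (n : ℕ) : Type := MvPolynomial (Fin n) K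

variable {K : Type} [Field K] {n : ℕ}

/-- the multiplication map `(v_j) ↦ ∑ X_j v_j` -/
noncomputable def mu (K : Type) [Field K] (n : ℕ) : (Fin n → Pol K n) →ₗ[K] Pol K n :=
  ∑ j : Fin n, (LinearMap.mulLeft K (X j : Pol K n)) ∘ₗ (LinearMap.proj j)

/-- the evaluation `(v_j) ↦ ∑ x_j v_j` of the linear forms of a tuple at the point `x` -/
noncomputable def ev (x : Fin n → K) : (Fin n → Pol K n) →ₗ[K] Pol K n :=
  ∑ j : Fin n, x j • (LinearMap.proj j : (Fin n → Pol K n) →ₗ[K] Pol K n)

/-- the space of linear syzygies on the subspace `V` -/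
noncomputable def Syz (V : Submodule K (Pol K n)) : Submodule K (Fin n → Pol K n) :=
  Submodule.pi Set.univ (fun _ => V) ⊓ LinearMap.ker (mu K n)

/-- regular sequence, as in the problem file: multiplication by `f i` is injective modulo the ideal
generated by the earlier `f j` -/
def IsRegSeq {c : ℕ} (f : Fin c → Pol K n) : Prop :=
  ∀ (i : Fin c) (h : Pol K n), h * f i ∈ Ideal.span (f '' {j | j < i}) →
    h ∈ Ideal.span (f '' {j | j < i})

lemma mu_apply (v : Fin n → Pol K n) : mu K n v = ∑ j, X j * v j := by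
  unfold mu
  rw [LinearMap.sum_apply]
  rfl

lemma ev_apply (x : Fin n → K) (v : Fin n → Pol K n) : ev x v = ∑ j, x j • v j := by
  unfold ev
  rw [LinearMap.sum_apply]
  rfl

lemma mem_Syz {V : Submodule K (Pol K n)} {v : Fin n → Pol K n} :
    v ∈ Syz V ↔ (∀ j, v j ∈ V) ∧ ∑ j, X j * v j = 0 := by
  simp [Syz, Submodule.mem_pi, mu_apply]

lemma ev_add_smul (x y : Fin n → K) (t : K) : ev (x + t • y) = ev x + t • ev y := by
  refine LinearMap.ext fun v => ?_
  simp only [LinearMap.add_apply, LinearMap.smul_apply,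
    ev_apply, Pi.add_apply, Pi.smul_apply, smul_eq_mul, add_smul, Finset.sum_add_distrib,
    Finset.smul_sum, mul_smul]

lemma ev_single (j : Fin n) (v : Fin n → Pol K n) : ev (Pi.single j (1 : K)) v = v j := by
  rw [ev_apply, Finset.sum_eq_single j]
  · simp
  · intro b _ hb
    simp [Pi.single_eq_of_ne hb]
  · simp

lemma ev_mem {V : Submodule K (Pol K n)} {v : Fin n → Pol K n} (hv : v ∈ Syz V) (x : Fin n → K) :
    ev x v ∈ V := by
  rw [ev_apply]
  exact Submodule.sum_mem _ fun j _ => Submodule.smul_mem _ _ ((mem_Syz.mp hv).1 j)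

lemma Syz_mono {V V' : Submodule K (Pol K n)} (h : V ≤ V') : Syz V ≤ Syz V' := by
  intro v hv
  rw [mem_Syz] at hv ⊢
  exact ⟨fun j => h (hv.1 j), hv.2⟩

end Vale.Agent.Lib.P200
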