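import Vale.Agent.Lib.P200.BC2
import Vale.Agent.Lib.P200.Defs

/-!
# P200: a regular sequence stays regular after a field extension
-/

namespace Vale.Agent.Lib.P200

open MvPolynomial

variable {K L : Type} [Field K] [Field L] [Algebra K L] {n : ℕ}

/-- auxiliary: the set `{g | ∀ l, lam l g ∈ J}` is stable under multiplication -/
theorem lam_mul_mem (J : Ideal (MvPolynomial (Fin n) K)) (g : MvPolynomial (Fin n) L)
    (hg : ∀ l : L →ₗ[K] K, lam l g ∈ J) (r : MvPolynomial (Fin n) L) :
    ∀ l : L →ₗ[K] K, lam l (r * g) ∈ J := by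
  induction r using MvPolynomial.induction_on' with
  | monomial m c =>
    intro l
    rw [lam_monomial_mul]
    exact Ideal.mul_mem_left _ _ (hg _)
  | add p q hp hq =>
    intro l
    rw [add_mul, map_add]
    exact Ideal.add_mem _ (hp l) (hq l)

/-- auxiliary: the ideal `{g | ∀ l, lam l g ∈ J}` -/
def lamIdeal (J : Ideal (MvPolynomial (Fin n) K)) : Ideal (MvPolynomial (Fin n) L) where
  carrier := {g | ∀ l : L →ₗ[K] K, lam l g ∈ J}
  add_mem' := by
    intro a b ha hb l
    rw [map_add]
    exact Ideal.add_mem _ (ha l) (hb l)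
  zero_mem' := by
    intro l
    rw [map_zero]
    exact Ideal.zero_mem _
  smul_mem' := by
    intro r g hg l
    rw [smul_eq_mul]
    exact lam_mul_mem J g hg r l

/-- The set `{g | ∀ l, lam l g ∈ J}` is an ideal of `L[x]`: closed under addition (`map_add`) and
under multiplication by any `r` (write `r` as a sum of monomials, `MvPolynomial.induction_on'` or
`r.as_sum`, and use `lam_monomial_mul`; note the quantifier over ALL `l`).  It contains
`map _ p` for `p ∈ J` (`lam_map_mul` with `h = 1`).  So it contains `Ideal.map _ J`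
(`Ideal.map_le_iff_le_comap` or `Submodule.span_induction`). -/
theorem lam_mem_of_mem_map (J : Ideal (MvPolynomial (Fin n) K)) (g : MvPolynomial (Fin n) L)
    (hg : g ∈ Ideal.map (map (algebraMap K L)) J) (l : L →ₗ[K] K) : lam l g ∈ J := by
  have hle : Ideal.map (map (algebraMap K L)) J ≤ (lamIdeal J : Ideal (MvPolynomial (Fin n) L)) := by
    rw [Ideal.map_le_iff_le_comap]
    intro p hp
    rw [Ideal.mem_comap]
    intro l'
    have h1 := lam_map_mul l' p (1 : MvPolynomial (Fin n) L)
    rw [mul_one] at h1
    rw [h1]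
    exact Ideal.mul_mem_right _ _ hp
  exact hle hg l

/-- With `J = Ideal.span (f '' {j | j < i})` we have
`Ideal.map _ J = Ideal.span ((fun i => map _ (f i)) '' {j | j < i})` (`Ideal.map_span`,
`Set.image_image`).  If `h * map _ (f i)` lies in it then for all `l`
`lam l h * f i = lam l (map _ (f i) * h) ∈ J` (`lam_map_mul`, `lam_mem_of_mem_map`), so
`lam l h ∈ J` by `hreg`, and `mem_map_of_lam_mem` applies. -/
theorem isRegSeq_map {c : ℕ} (f : Fin c → Pol K n) (hreg : IsRegSeq f) :
    IsRegSeq (fun i => (map (algebraMap K L) (f i) : Pol L n)) := by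
  intro i h hh
  have hJ : Ideal.map (map (algebraMap K L)) (Ideal.span (f '' {j | j < i}))
      = Ideal.span ((fun i => (map (algebraMap K L) (f i) : Pol L n)) '' {j | j < i}) := by
    rw [Ideal.map_span, Set.image_image]
  rw [← hJ] at hh ⊢
  refine mem_map_of_lam_mem _ h (fun l => ?_)
  refine hreg i _ ?_
  have h1 := lam_mem_of_mem_map _ _ hh l
  rw [mul_comm, lam_map_mul] at h1
  rw [mul_comm]
  exact h1

end Vale.Agent.Lib.P200
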