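import Vale.Agent.Lib.P200.BC1

/-!
# P200: dimensions of spaces of polynomials do not change under a field extension
-/

namespace Vale.Agent.Lib.P200

open Module MvPolynomial

variable {K L : Type} [Field K] [Field L] [Algebra K L] {n : ℕ}

/-- If `∑ c i • map _ (v i) = 0` then, applying `lam l` (`c • map _ p = map _ p * C c`,
`lam_map_mul`, `lam l (C c) = C (l c)` by `coeff_lam`): `∑ l (c i) • v i = 0`, so `l (c i) = 0` for
all functionals `l`, so `c i = 0` (`Module.forall_dual_apply_eq_zero_iff`).
(Alternative: `Module.Flat.linearIndependent_one_tmul` and `MvPolynomial.algebraTensorAlgEquiv`.) -/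
theorem linearIndependent_map {ι : Type} (v : ι → MvPolynomial (Fin n) K)
    (hv : LinearIndependent K v) :
    LinearIndependent L (fun i => map (algebraMap K L) (v i)) := by
  have h1 : LinearIndependent L (fun i => (1 : L) ⊗ₜ[K] v i) :=
    Module.Flat.linearIndependent_one_tmul hv
  have h2 := h1.map' (algebraTensorAlgEquiv K L (σ := Fin n)).toLinearEquiv.toLinearMap
    (LinearEquiv.ker _)
  have h3 : (⇑(algebraTensorAlgEquiv K L (σ := Fin n)).toLinearEquiv.toLinearMap ∘
      fun i => (1 : L) ⊗ₜ[K] v i) = fun i => map (algebraMap K L) (v i) := by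
    funext i
    simp
  rwa [h3] at h2

/-- take a basis `b` of `W`; the span equals `span L (range (fun i => map _ (b i)))`; apply
`linearIndependent_map` and `finrank_span_eq_card`, `Module.finrank_eq_card_basis` -/
theorem finrank_span_map (W : Submodule K (MvPolynomial (Fin n) K)) [FiniteDimensional K W] :
    finrank L (Submodule.span L ((fun p : MvPolynomial (Fin n) K => map (algebraMap K L) p) ''
      (W : Set (MvPolynomial (Fin n) K)))) = finrank K W := by
  classical
  set b := Module.finBasis K W with hb
  have hli : LinearIndependent K (fun i => ((b i : W) : MvPolynomial (Fin n) K)) :=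
    b.linearIndependent.map' W.subtype (Submodule.ker_subtype W)
  have hL := linearIndependent_map (L := L) _ hli
  have hspan : Submodule.span L ((fun p : MvPolynomial (Fin n) K => map (algebraMap K L) p) ''
      (W : Set (MvPolynomial (Fin n) K)))
      = Submodule.span L (Set.range fun i => map (algebraMap K L)
          ((b i : W) : MvPolynomial (Fin n) K)) := by
    apply le_antisymm
    · rw [Submodule.span_le]
      rintro _ ⟨p, hp, rfl⟩
      have hrep := b.sum_repr ⟨p, hp⟩
      have hp' : p = ∑ i, b.repr ⟨p, hp⟩ i • ((b i : W) : MvPolynomial (Fin n) K) := by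
        have h0 : ((∑ i, b.repr ⟨p, hp⟩ i • b i : W) : MvPolynomial (Fin n) K) = p := by
          rw [hrep]
        rw [Submodule.coe_sum] at h0
        exact h0.symm
      simp only [SetLike.mem_coe]
      rw [hp', map_sum]
      refine Submodule.sum_mem _ fun i _ => ?_
      rw [MvPolynomial.smul_eq_C_mul, map_mul, map_C, ← MvPolynomial.smul_eq_C_mul]
      exact Submodule.smul_mem _ _ (Submodule.subset_span ⟨i, rfl⟩)
    · rw [Submodule.span_le]
      rintro _ ⟨i, rfl⟩
      exact Submodule.subset_span ⟨_, (b i).2, rfl⟩
  rw [hspan, finrank_span_eq_card hL, Fintype.card_fin]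

end Vale.Agent.Lib.P200
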