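import Vale.Agent.Lib.P200.Growth
import Vale.Agent.Lib.P200.BC3
import Vale.Agent.Lib.P200.BC4

/-!
# P200: the first growth step over an arbitrary field (base change to the algebraic closure)
-/

namespace Vale.Agent.Lib.P200

open Module MvPolynomial

theorem span_map_le_homog {K L : Type} [Field K] [Field L] [Algebra K L] {n : ℕ}
    (I : Ideal (MvPolynomial (Fin n) K)) (d : ℕ) :
    Submodule.span L ((fun p : MvPolynomial (Fin n) K => map (algebraMap K L) p) ''
      (part I d : Set (MvPolynomial (Fin n) K))) ≤ homogeneousSubmodule (Fin n) L d := by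
  rw [Submodule.span_le]
  rintro _ ⟨p, hp, rfl⟩
  exact IsHomogeneous.map hp.2 _

theorem first_growth_step_ext {K L : Type} [Field K] [Field L] [Algebra K L] [Infinite L]
    {n c a q : ℕ}
    (f : Fin c → MvPolynomial (Fin n) K) (hf : ∀ i, (f i).IsHomogeneous a) (hreg : IsRegSeq f)
    (I : Ideal (MvPolynomial (Fin n) K)) (hfI : ∀ i, f i ∈ I)
    (hq : finrank K (part I a) = c + q) (hqa : q + 2 ≤ a) :
    n * (c + q) ≤ finrank K (part I (a + 1)) + (q + 1).choose 2 := by
  have hV : FiniteDimensional K (part I a) := finite_part I a
  have hU : FiniteDimensional K (part I (a + 1)) := finite_part I (a + 1)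
  have hfa : FiniteDimensional L (homogeneousSubmodule (Fin n) L a) := finite_homog a
  have hfa1 : FiniteDimensional L (homogeneousSubmodule (Fin n) L (a + 1)) := finite_homog (a + 1)
  have hVLfin : FiniteDimensional L (Submodule.span L
      ((fun p : MvPolynomial (Fin n) K => map (algebraMap K L) p) ''
      (part I a : Set (MvPolynomial (Fin n) K)))) :=
    Submodule.finiteDimensional_of_le (span_map_le_homog I a)
  have hULfin : FiniteDimensional L (Submodule.span L
      ((fun p : MvPolynomial (Fin n) K => map (algebraMap K L) p) ''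
      (part I (a + 1) : Set (MvPolynomial (Fin n) K)))) :=
    Submodule.finiteDimensional_of_le (span_map_le_homog I (a + 1))
  have hVL : finrank L (Submodule.span L
      ((fun p : MvPolynomial (Fin n) K => map (algebraMap K L) p) ''
      (part I a : Set (MvPolynomial (Fin n) K)))) = c + q := by
    rw [finrank_span_map, hq]
  have hUL : finrank L (Submodule.span L
      ((fun p : MvPolynomial (Fin n) K => map (algebraMap K L) p) ''
      (part I (a + 1) : Set (MvPolynomial (Fin n) K)))) = finrank K (part I (a + 1)) :=
    finrank_span_map _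
  have hf' : ∀ i, (map (algebraMap K L) (f i)).IsHomogeneous a := fun i => (hf i).map _
  have hreg' : IsRegSeq (fun i => (map (algebraMap K L) (f i) : Pol L n)) := isRegSeq_map f hreg
  have hFV : Submodule.span L (Set.range (fun i => (map (algebraMap K L) (f i) : Pol L n)))
      ≤ Submodule.span L ((fun p : MvPolynomial (Fin n) K => map (algebraMap K L) p) ''
      (part I a : Set (MvPolynomial (Fin n) K))) := by
    rw [Submodule.span_le]
    rintro _ ⟨i, rfl⟩
    exact Submodule.subset_span ⟨f i, ⟨hfI i, hf i⟩, rfl⟩
  have h1 := finrank_map_mkQ _ hf' hreg' (by omega) _ hFV hVL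
  have h2 := finrank_Syz_le_of_reg _ hf' hreg' q _ hFV h1 hqa
  have h3 := growth (Submodule.span L
      ((fun p : MvPolynomial (Fin n) K => map (algebraMap K L) p) ''
      (part I a : Set (MvPolynomial (Fin n) K)))) (Submodule.span L
      ((fun p : MvPolynomial (Fin n) K => map (algebraMap K L) p) ''
      (part I (a + 1) : Set (MvPolynomial (Fin n) K)))) (by
      intro v hv j
      induction hv using Submodule.span_induction with
      | mem x hx =>
        obtain ⟨p, hp, rfl⟩ := hx
        refine Submodule.subset_span ⟨X j * p, X_mul_mem_part I a p hp j, ?_⟩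
        simp
      | zero => simp
      | add x y _ _ hx hy =>
        rw [mul_add]
        exact Submodule.add_mem _ hx hy
      | smul r x _ hx =>
        rw [mul_smul_comm]
        exact Submodule.smul_mem _ _ hx)
  rw [hVL, hUL] at h3
  exact le_trans h3 (Nat.add_le_add_left h2 _)

theorem first_growth_step_any {K : Type} [Field K] {n c a q : ℕ}
    (f : Fin c → MvPolynomial (Fin n) K) (hf : ∀ i, (f i).IsHomogeneous a) (hreg : IsRegSeq f)
    (I : Ideal (MvPolynomial (Fin n) K)) (hfI : ∀ i, f i ∈ I)
    (hq : finrank K (part I a) = c + q) (hqa : q + 2 ≤ a) :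
    n * (c + q) ≤ finrank K (part I (a + 1)) + (q + 1).choose 2 :=
  first_growth_step_ext (L := AlgebraicClosure K) f hf hreg I hfI hq hqa

end Vale.Agent.Lib.P200
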