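import Vale.Agent.Lib.P200.Main

/-!
# P200: from syzygies to the growth of the Hilbert function
-/

namespace Vale.Agent.Lib.P200

open Module MvPolynomial

variable {K : Type} [Field K] {n : ℕ}

/-- `homogeneousSubmodule_eq_finsupp_supported`; the set of exponent vectors of degree `d` in
`Fin n →₀ ℕ` is finite -/
theorem finite_homog (d : ℕ) : FiniteDimensional K (homogeneousSubmodule (Fin n) K d) :=
  Module.Finite.iff_fg.mpr (homogeneousSubmodule_fg (Fin n) K d)

/-- rank-nullity for `(v_j) ↦ ∑ X_j v_j` on `Fin n → V`: the kernel is (isomorphic to) `Syz V`, the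
range lies in `U`; `finrank (Fin n → V) = n * finrank V` (`Module.finrank_pi_fintype` /
`Module.finrank_fin_fun`-like) -/
theorem growth (V U : Submodule K (Pol K n)) [FiniteDimensional K V] [FiniteDimensional K U]
    (h : ∀ v ∈ V, ∀ j : Fin n, X j * v ∈ U) :
    n * finrank K V ≤ finrank K U + finrank K (Syz V) := by
  let ψ : (Fin n → V) →ₗ[K] (Fin n → Pol K n) := V.subtype.compLeft (Fin n)
  have hψ : ∀ (w : Fin n → V) (j : Fin n), ψ w j = (w j : Pol K n) := fun _ _ => rfl
  have hinj : Function.Injective ψ := by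
    intro w w' hw
    funext j
    apply Subtype.ext
    have := congrFun hw j
    simpa [hψ] using this
  let φ : (Fin n → V) →ₗ[K] Pol K n := mu K n ∘ₗ ψ
  have hφ : ∀ w : Fin n → V, φ w = ∑ j, X j * (w j : Pol K n) := by
    intro w
    show mu K n (ψ w) = _
    rw [mu_apply]
    rfl
  have hrange : LinearMap.range φ ≤ U := by
    rintro _ ⟨w, rfl⟩
    rw [hφ]
    exact Submodule.sum_mem _ fun j _ => h _ (w j).2 j
  have hker : (LinearMap.ker φ).map ψ = Syz V := by
    ext v
    rw [mem_Syz, Submodule.mem_map]
    constructor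
    · rintro ⟨w, hw, rfl⟩
      refine ⟨fun j => (w j).2, ?_⟩
      rw [LinearMap.mem_ker, hφ] at hw
      exact hw
    · rintro ⟨h1, h2⟩
      refine ⟨fun j => ⟨v j, h1 j⟩, ?_, rfl⟩
      rw [LinearMap.mem_ker, hφ]
      exact h2
  have h1 : finrank K (LinearMap.ker φ) = finrank K (Syz V) := by
    rw [← hker]
    exact (Submodule.equivMapOfInjective ψ hinj (LinearMap.ker φ)).finrank_eq
  have h2 : finrank K (LinearMap.range φ) ≤ finrank K U := Submodule.finrank_mono hrange
  have h3 := LinearMap.finrank_range_add_finrank_ker φ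
  have h4 : finrank K (Fin n → V) = n * finrank K V := by
    rw [Module.finrank_pi_fintype]
    simp
  omega

/-- rank-nullity for `F.mkQ` restricted to `V`; `finrank F = c` by `linearIndependent_of_reg`
(`finrank_span_eq_card`) -/
theorem finrank_map_mkQ {c a q : ℕ} (f : Fin c → Pol K n) (hf : ∀ i, (f i).IsHomogeneous a)
    (hreg : IsRegSeq f) (ha : 0 < a) (V : Submodule K (Pol K n)) [FiniteDimensional K V]
    (hFV : Submodule.span K (Set.range f) ≤ V) (hV : finrank K V = c + q) :
    finrank K (V.map (Submodule.span K (Set.range f)).mkQ) = q := by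
  have hF : finrank K (Submodule.span K (Set.range f)) = c := by
    rw [finrank_span_eq_card (linearIndependent_of_reg f hf hreg ha)]
    simp
  have h3 := LinearMap.finrank_range_add_finrank_ker
    ((Submodule.span K (Set.range f)).mkQ.domRestrict V)
  rw [LinearMap.range_domRestrict, LinearMap.ker_domRestrict, Submodule.ker_mkQ,
    (Submodule.comapSubtypeEquivOfLe hFV).finrank_eq, hF, hV] at h3
  omega

end Vale.Agent.Lib.P200
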