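import Vale.Agent.Lib.P200.GLow

/-!
# P200, mixed degrees: consequences of `no_low_syzygy2`
-/

namespace Vale.Agent.Lib.P200

open Module MvPolynomial

variable {K : Type} [Field K] {n : ℕ}

/-- ADAPT `linearIndependent_of_reg` in `Low.lean`: `no_low_syzygy2` with `E i = C (β i)`,
`ε i = 0` -/
theorem linearIndependent_of_reg2 {C a : ℕ} (f : Fin C → Pol K n) (deg : Fin C → ℕ)
    (hf : ∀ i, (f i).IsHomogeneous (deg i)) (hdeg : ∀ i, a ≤ deg i) (hreg : IsRegSeq f)
    (ha : 0 < a) : LinearIndependent K f := by
  rw [Fintype.linearIndependent_iff]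
  intro g hg i
  have h0 : ∑ i, (MvPolynomial.C (g i) : Pol K n) * f i = 0 := by
    rw [← hg]
    apply Finset.sum_congr rfl
    intro j _
    rw [MvPolynomial.smul_eq_C_mul]
  have h1 := no_low_syzygy2 f deg hf hdeg hreg (fun i => (MvPolynomial.C (g i) : Pol K n))
    (fun _ => 0) (fun i => isHomogeneous_C _ _) (fun _ => ha) h0 i
  exact (map_eq_zero_iff _ (C_injective (Fin n) K)).mp h1

/-- Apply `no_low_syzygy2` with `E = Fin.addCases (Fin.addCases A B) (fun _ => 0)` and
`ε = Fin.addCases (Fin.addCases (fun _ => s + 1) (fun _ => s)) (fun _ => 0)`; split the sum with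
`Fin.sum_univ_add` (twice), `Fin.addCases_left`, `Fin.addCases_right`; homogeneity by
`Fin.addCases` on the index (`isHomogeneous_zero`). -/
theorem noLow_of_reg {c e r a : ℕ} (f : Fin (c + e + r) → Pol K n) (deg : Fin (c + e + r) → ℕ)
    (hf : ∀ i, (f i).IsHomogeneous (deg i)) (hdeg : ∀ i, a ≤ deg i) (hreg : IsRegSeq f) :
    NoLow a (fun i : Fin c => f (Fin.castAdd r (Fin.castAdd e i)))
      (fun t : Fin e => f (Fin.castAdd r (Fin.natAdd c t))) := by
  intro s A B hs hA hB hsum
  set E : Fin (c + e + r) → Pol K n :=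
    Fin.addCases (Fin.addCases A B) (fun _ => 0) with hEdef
  set ε : Fin (c + e + r) → ℕ :=
    Fin.addCases (Fin.addCases (fun _ => s + 1) (fun _ => s)) (fun _ => 0) with hεdef
  have hE : ∀ i, (E i).IsHomogeneous (ε i) := by
    intro i
    refine Fin.addCases (fun j => ?_) (fun j => ?_) i
    · refine Fin.addCases (fun k => ?_) (fun k => ?_) j
      · simp only [hEdef, hεdef, Fin.addCases_left]
        exact hA k
      · simp only [hEdef, hεdef, Fin.addCases_left, Fin.addCases_right]
        exact hB k
    · simp only [hEdef, hεdef, Fin.addCases_right]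
      exact isHomogeneous_zero _ _ _
  have hε : ∀ i, ε i < a := by
    intro i
    refine Fin.addCases (fun j => ?_) (fun j => ?_) i
    · refine Fin.addCases (fun k => ?_) (fun k => ?_) j
      · simp only [hεdef, Fin.addCases_left]
        exact hs
      · simp only [hεdef, Fin.addCases_left, Fin.addCases_right]
        omega
    · simp only [hεdef, Fin.addCases_right]
      omega
  have h0 : ∑ i, E i * f i = 0 := by
    rw [Fin.sum_univ_add, Fin.sum_univ_add]
    simp only [hEdef, Fin.addCases_left, Fin.addCases_right, zero_mul, Finset.sum_const_zero,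
      add_zero]
    exact hsum
  have hall := no_low_syzygy2 f deg hf hdeg hreg E ε hE hε h0
  refine ⟨fun i => ?_, fun t => ?_⟩
  · have := hall (Fin.castAdd r (Fin.castAdd e i))
    simpa only [hEdef, Fin.addCases_left] using this
  · have := hall (Fin.castAdd r (Fin.natAdd c t))
    simpa only [hEdef, Fin.addCases_left, Fin.addCases_right] using this

end Vale.Agent.Lib.P200
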