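import Vale.Agent.Lib.P200.GMain
import Vale.Agent.Lib.P200.GLow2
import Vale.Agent.Lib.P200.BC5

/-!
# P200, mixed degrees: the first growth step over an arbitrary field
-/

namespace Vale.Agent.Lib.P200

open Module MvPolynomial

theorem finrank_map_mkQ2 {K : Type} [Field K] {n c q : ℕ} (f : Fin c → Pol K n)
    (hLI : LinearIndependent K f) (V : Submodule K (Pol K n)) [FiniteDimensional K V]
    (hFV : Submodule.span K (Set.range f) ≤ V) (hV : finrank K V = c + q) :
    finrank K (V.map (Submodule.span K (Set.range f)).mkQ) = q := by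
  have hF : finrank K (Submodule.span K (Set.range f)) = c := by
    rw [finrank_span_eq_card hLI]
    simp
  have h3 := LinearMap.finrank_range_add_finrank_ker
    ((Submodule.span K (Set.range f)).mkQ.domRestrict V)
  rw [LinearMap.range_domRestrict, LinearMap.ker_domRestrict, Submodule.ker_mkQ,
    (Submodule.comapSubtypeEquivOfLe hFV).finrank_eq, hF, hV] at h3
  omega

theorem growth_mixed_ext {K L : Type} [Field K] [Field L] [Algebra K L] [Infinite L]
    {n c e r a q : ℕ}
    (f : Fin (c + e + r) → MvPolynomial (Fin n) K) (deg : Fin (c + e + r) → ℕ)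
    (hf : ∀ i, (f i).IsHomogeneous (deg i))
    (hd1 : ∀ i : Fin c, deg (Fin.castAdd r (Fin.castAdd e i)) = a)
    (hd2 : ∀ t : Fin e, deg (Fin.castAdd r (Fin.natAdd c t)) = a + 1)
    (hd3 : ∀ i, a ≤ deg i) (hreg : IsRegSeq f)
    (I : Ideal (MvPolynomial (Fin n) K)) (hfI : ∀ i, f i ∈ I)
    (hq : finrank K (part I a) = c + q) (hqa : q + 2 ≤ a) :
    n * (c + q) + e ≤ finrank K (part I (a + 1)) + (q + 1).choose 2 := by
  have hV : FiniteDimensional K (part I a) := finite_part I a
  have hU : FiniteDimensional K (part I (a + 1)) := finite_part I (a + 1)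
  have hfa : FiniteDimensional L (homogeneousSubmodule (Fin n) L a) := finite_homog a
  have hfa1 : FiniteDimensional L (homogeneousSubmodule (Fin n) L (a + 1)) := finite_homog (a + 1)
  have hVLfin : FiniteDimensional L (Submodule.span L
      ((fun p : MvPolynomial (Fin n) K => map (algebraMap K L) p) ''
      (part I a : Set (MvPolynomial (Fin n) K)))) :=
    Submodule.finiteDimensional_of_le (span_map_le_homog I a)
  have hULfin : FiniteDimensional L (Submodule.span L
      ((fun p : MvPolynomial (Fin n) K => map (algebraMap K L) p) ''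
      (part I (a + 1) : Set (MvPolynomial (Fin n) K)))) :=
    Submodule.finiteDimensional_of_le (span_map_le_homog I (a + 1))
  have hVL : finrank L (Submodule.span L
      ((fun p : MvPolynomial (Fin n) K => map (algebraMap K L) p) ''
      (part I a : Set (MvPolynomial (Fin n) K)))) = c + q := by
    rw [finrank_span_map, hq]
  have hUL : finrank L (Submodule.span L
      ((fun p : MvPolynomial (Fin n) K => map (algebraMap K L) p) ''
      (part I (a + 1) : Set (MvPolynomial (Fin n) K)))) = finrank K (part I (a + 1)) :=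
    finrank_span_map _
  have hf' : ∀ i, (map (algebraMap K L) (f i)).IsHomogeneous (deg i) := fun i => (hf i).map _
  have hreg' : IsRegSeq (fun i => (map (algebraMap K L) (f i) : Pol L n)) := isRegSeq_map f hreg
  have hNL := noLow_of_reg (fun i => (map (algebraMap K L) (f i) : Pol L n)) deg hf' hd3 hreg'
  have hLIall := linearIndependent_of_reg2 (fun i => (map (algebraMap K L) (f i) : Pol L n)) deg
    hf' hd3 hreg' (by omega)
  have hLI1 : LinearIndependent L (fun i : Fin c =>
      (map (algebraMap K L) (f (Fin.castAdd r (Fin.castAdd e i))) : Pol L n)) :=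
    hLIall.comp (fun i : Fin c => Fin.castAdd r (Fin.castAdd e i))
      ((Fin.castAdd_injective _ _).comp (Fin.castAdd_injective _ _))
  have hLI2 : LinearIndependent L (fun t : Fin e =>
      (map (algebraMap K L) (f (Fin.castAdd r (Fin.natAdd c t))) : Pol L n)) :=
    hLIall.comp (fun t : Fin e => Fin.castAdd r (Fin.natAdd c t))
      ((Fin.castAdd_injective _ _).comp (Fin.natAdd_injective _ _))
  have hFV : Submodule.span L (Set.range (fun i : Fin c =>
      (map (algebraMap K L) (f (Fin.castAdd r (Fin.castAdd e i))) : Pol L n)))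
      ≤ Submodule.span L ((fun p : MvPolynomial (Fin n) K => map (algebraMap K L) p) ''
      (part I a : Set (MvPolynomial (Fin n) K))) := by
    rw [Submodule.span_le]
    rintro _ ⟨i, rfl⟩
    refine Submodule.subset_span ⟨f (Fin.castAdd r (Fin.castAdd e i)), ⟨hfI _, ?_⟩, rfl⟩
    have := hf (Fin.castAdd r (Fin.castAdd e i))
    rw [hd1 i] at this
    exact this
  have hEU : Submodule.span L (Set.range (fun t : Fin e =>
      (map (algebraMap K L) (f (Fin.castAdd r (Fin.natAdd c t))) : Pol L n)))
      ≤ Submodule.span L ((fun p : MvPolynomial (Fin n) K => map (algebraMap K L) p) ''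
      (part I (a + 1) : Set (MvPolynomial (Fin n) K))) := by
    rw [Submodule.span_le]
    rintro _ ⟨t, rfl⟩
    refine Submodule.subset_span ⟨f (Fin.castAdd r (Fin.natAdd c t)), ⟨hfI _, ?_⟩, rfl⟩
    have := hf (Fin.castAdd r (Fin.natAdd c t))
    rw [hd2 t] at this
    exact this
  have hEfin : FiniteDimensional L (Submodule.span L (Set.range (fun t : Fin e =>
      (map (algebraMap K L) (f (Fin.castAdd r (Fin.natAdd c t))) : Pol L n)))) :=
    Submodule.finiteDimensional_of_le hEU
  have hE : finrank L (Submodule.span L (Set.range (fun t : Fin e =>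
      (map (algebraMap K L) (f (Fin.castAdd r (Fin.natAdd c t))) : Pol L n)))) = e := by
    rw [finrank_span_eq_card hLI2]
    simp
  have h1 := finrank_map_mkQ2 _ hLI1 _ hFV hVL
  have h2 := finrank_SyzE_le _ _ hLI1 hNL q _ hFV h1 hqa
  have h3 := growth2 (Submodule.span L (Set.range (fun t : Fin e =>
      (map (algebraMap K L) (f (Fin.castAdd r (Fin.natAdd c t))) : Pol L n))))
      (Submodule.span L
      ((fun p : MvPolynomial (Fin n) K => map (algebraMap K L) p) ''
      (part I a : Set (MvPolynomial (Fin n) K)))) (Submodule.span L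
      ((fun p : MvPolynomial (Fin n) K => map (algebraMap K L) p) ''
      (part I (a + 1) : Set (MvPolynomial (Fin n) K)))) (by
      intro v hv j
      induction hv using Submodule.span_induction with
      | mem x hx =>
        obtain ⟨p, hp, rfl⟩ := hx
        refine Submodule.subset_span ⟨X j * p, X_mul_mem_part I a p hp j, ?_⟩
        simp
      | zero => simp
      | add x y _ _ hx hy =>
        rw [mul_add]
        exact Submodule.add_mem _ hx hy
      | smul r x _ hx =>
        rw [mul_smul_comm]
        exact Submodule.smul_mem _ _ hx) hEU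
  rw [hVL, hUL, hE] at h3
  exact le_trans h3 (Nat.add_le_add_left h2 _)

theorem growth_mixed {K : Type} [Field K] {n c e r a q : ℕ}
    (f : Fin (c + e + r) → MvPolynomial (Fin n) K) (deg : Fin (c + e + r) → ℕ)
    (hf : ∀ i, (f i).IsHomogeneous (deg i))
    (hd1 : ∀ i : Fin c, deg (Fin.castAdd r (Fin.castAdd e i)) = a)
    (hd2 : ∀ t : Fin e, deg (Fin.castAdd r (Fin.natAdd c t)) = a + 1)
    (hd3 : ∀ i, a ≤ deg i) (hreg : IsRegSeq f)
    (I : Ideal (MvPolynomial (Fin n) K)) (hfI : ∀ i, f i ∈ I)
    (hq : finrank K (part I a) = c + q) (hqa : q + 2 ≤ a) :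
    n * (c + q) + e ≤ finrank K (part I (a + 1)) + (q + 1).choose 2 :=
  growth_mixed_ext (L := AlgebraicClosure K) f deg hf hd1 hd2 hd3 hreg I hfI hq hqa

theorem le_finrank_part2 {K : Type} [Field K] {n c e r a : ℕ}
    (f : Fin (c + e + r) → MvPolynomial (Fin n) K) (deg : Fin (c + e + r) → ℕ)
    (hf : ∀ i, (f i).IsHomogeneous (deg i))
    (hd1 : ∀ i : Fin c, deg (Fin.castAdd r (Fin.castAdd e i)) = a)
    (hd3 : ∀ i, a ≤ deg i) (hreg : IsRegSeq f) (ha : 0 < a)
    (I : Ideal (MvPolynomial (Fin n) K)) (hfI : ∀ i, f i ∈ I) :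
    c ≤ finrank K (part I a) := by
  have hV : FiniteDimensional K (part I a) := finite_part I a
  have hLIall := linearIndependent_of_reg2 f deg hf hd3 hreg ha
  have hLI1 : LinearIndependent K (fun i : Fin c => f (Fin.castAdd r (Fin.castAdd e i))) :=
    hLIall.comp (fun i : Fin c => Fin.castAdd r (Fin.castAdd e i))
      ((Fin.castAdd_injective _ _).comp (Fin.castAdd_injective _ _))
  have hF : finrank K (Submodule.span K (Set.range
      (fun i : Fin c => f (Fin.castAdd r (Fin.castAdd e i))))) = c := by
    rw [finrank_span_eq_card hLI1]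
    simp
  rw [← hF]
  refine Submodule.finrank_mono ?_
  rw [Submodule.span_le]
  rintro _ ⟨i, rfl⟩
  refine ⟨hfI _, ?_⟩
  have := hf (Fin.castAdd r (Fin.castAdd e i))
  rw [hd1 i] at this
  exact this

end Vale.Agent.Lib.P200
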