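import Vale.Agent.Lib.P200.Defs

/-!
# P200, mixed degrees: linear syzygies modulo a space `E` of forms of the next degree
-/

namespace Vale.Agent.Lib.P200

open MvPolynomial

variable {K : Type} [Field K] {n : ℕ}

/-- tuples `(v_j)` of elements of `V` with `∑ X_j v_j ∈ E` -/
noncomputable def SyzE (E V : Submodule K (Pol K n)) : Submodule K (Fin n → Pol K n) :=
  Submodule.pi Set.univ (fun _ => V) ⊓ E.comap (mu K n)

lemma mem_SyzE {E V : Submodule K (Pol K n)} {v : Fin n → Pol K n} :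
    v ∈ SyzE E V ↔ (∀ j, v j ∈ V) ∧ ∑ j, X j * v j ∈ E := by
  simp [SyzE, Submodule.mem_pi, mu_apply]

/-- `f` (forms of degree `a`) and `h` (forms of degree `a + 1`) have no common syzygy with
coefficients of degree `< a` -/
def NoLow (a : ℕ) {c e : ℕ} (f : Fin c → Pol K n) (h : Fin e → Pol K n) : Prop :=
  ∀ (s : ℕ) (A : Fin c → Pol K n) (B : Fin e → Pol K n), s + 1 < a →
    (∀ i, (A i).IsHomogeneous (s + 1)) → (∀ t, (B t).IsHomogeneous s) →
    ∑ i, A i * f i + ∑ t, B t * h t = 0 → (∀ i, A i = 0) ∧ (∀ t, B t = 0)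

lemma evE_mem {E V : Submodule K (Pol K n)} {v : Fin n → Pol K n} (hv : v ∈ SyzE E V)
    (x : Fin n → K) : ev x v ∈ V := by
  rw [ev_apply]
  exact Submodule.sum_mem _ fun j _ => Submodule.smul_mem _ _ ((mem_SyzE.mp hv).1 j)

end Vale.Agent.Lib.P200
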