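import Vale.Agent.Lib.P200.GDefs
import Vale.Agent.Lib.P200.Final

/-!
# P200, mixed degrees: rank-nullity for the multiplication map
-/

namespace Vale.Agent.Lib.P200

open Module MvPolynomial

variable {K : Type} [Field K] {n : ℕ}

/-- as `finite_Syz`: `SyzE E V ≤ Submodule.pi univ (fun _ => V)`, which is the range of
`V.subtype.compLeft (Fin n)` -/
theorem finite_SyzE (E V : Submodule K (Pol K n)) [FiniteDimensional K V] :
    FiniteDimensional K (SyzE E V) := by
  let g : SyzE E V →ₗ[K] (Fin n → V) :=
    { toFun := fun v j => ⟨v.1 j, (mem_SyzE.mp v.2).1 j⟩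
      map_add' := fun a b => by
        funext j
        rfl
      map_smul' := fun c a => by
        funext j
        rfl }
  have hg : Function.Injective g := by
    intro a b hab
    apply Subtype.ext
    funext j
    have := congrFun hab j
    exact congrArg Subtype.val this
  exact Module.Finite.of_injective g hg

/-- ADAPT `growth` in `Final.lean`.  Rank-nullity for
`T : (Fin n → V) × E → U`, `T (w, ε) = ∑ X_j w_j - ε`: the range lies in `U`; the kernel injects
into `SyzE E V` by `(w, ε) ↦ (j ↦ (w j : Pol K n))` (injective because `ε = ∑ X_j w_j` on the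
kernel); `finrank ((Fin n → V) × E) = n * finrank V + finrank E` (`Module.finrank_prod`,
`Module.finrank_pi_fintype`). -/
theorem growth2 (E V U : Submodule K (Pol K n)) [FiniteDimensional K E] [FiniteDimensional K V]
    [FiniteDimensional K U] (hVU : ∀ v ∈ V, ∀ j : Fin n, X j * v ∈ U) (hEU : E ≤ U) :
    n * finrank K V + finrank K E ≤ finrank K U + finrank K (SyzE E V) := by
  have hfin : FiniteDimensional K (SyzE E V) := finite_SyzE E V
  let ψ : (Fin n → V) →ₗ[K] (Fin n → Pol K n) := V.subtype.compLeft (Fin n)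
  have hψ : ∀ (w : Fin n → V) (j : Fin n), ψ w j = (w j : Pol K n) := fun _ _ => rfl
  let φ : (Fin n → V) →ₗ[K] Pol K n := mu K n ∘ₗ ψ
  have hφ : ∀ w : Fin n → V, φ w = ∑ j, X j * (w j : Pol K n) := by
    intro w
    show mu K n (ψ w) = _
    rw [mu_apply]
    rfl
  let T : ((Fin n → V) × E) →ₗ[K] Pol K n :=
    φ ∘ₗ LinearMap.fst K (Fin n → V) E - E.subtype ∘ₗ LinearMap.snd K (Fin n → V) E
  have hT : ∀ p : (Fin n → V) × E, T p = ∑ j, X j * (p.1 j : Pol K n) - (p.2 : Pol K n) := by
    intro p
    show φ p.1 - (p.2 : Pol K n) = _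
    rw [hφ]
  have hrange : LinearMap.range T ≤ U := by
    rintro _ ⟨p, rfl⟩
    rw [hT]
    exact Submodule.sub_mem _ (Submodule.sum_mem _ fun j _ => hVU _ (p.1 j).2 j) (hEU p.2.2)
  -- the kernel injects into `SyzE E V`
  have hmem : ∀ p : LinearMap.ker T, ψ p.1.1 ∈ SyzE E V := by
    intro p
    rw [mem_SyzE]
    refine ⟨fun j => (p.1.1 j).2, ?_⟩
    have h0 : T p.1 = 0 := p.2
    rw [hT, sub_eq_zero] at h0
    have h1 : ∑ j, X j * ψ p.1.1 j = (p.1.2 : Pol K n) := h0
    rw [h1]
    exact p.1.2.2
  let g : LinearMap.ker T →ₗ[K] SyzE E V :=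
    { toFun := fun p => ⟨ψ p.1.1, hmem p⟩
      map_add' := fun a b => by
        apply Subtype.ext
        rfl
      map_smul' := fun c a => by
        apply Subtype.ext
        rfl }
  have hg : Function.Injective g := by
    intro a b hab
    have h0 : ψ a.1.1 = ψ b.1.1 := congrArg Subtype.val hab
    have h1 : a.1.1 = b.1.1 := by
      funext j
      apply Subtype.ext
      have := congrFun h0 j
      simpa [hψ] using this
    have ha : T a.1 = 0 := a.2
    have hb : T b.1 = 0 := b.2
    rw [hT, sub_eq_zero] at ha hb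
    have h2 : a.1.2 = b.1.2 := by
      apply Subtype.ext
      rw [← ha, ← hb, h1]
    apply Subtype.ext
    exact Prod.ext h1 h2
  have h1 : finrank K (LinearMap.ker T) ≤ finrank K (SyzE E V) :=
    LinearMap.finrank_le_finrank_of_injective hg
  have h2 : finrank K (LinearMap.range T) ≤ finrank K U := Submodule.finrank_mono hrange
  have h3 := LinearMap.finrank_range_add_finrank_ker T
  have h4 : finrank K ((Fin n → V) × E) = n * finrank K V + finrank K E := by
    rw [Module.finrank_prod, Module.finrank_pi_fintype]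
    simp
  omega

end Vale.Agent.Lib.P200
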