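import Vale.Agent.Lib.P200.KeyDet

/-!
# P200: the key lemma
-/

namespace Vale.Agent.Lib.P200

open Module MvPolynomial

variable {K : Type} [Field K] {n : ℕ}

/-- Let `F = span (range f)`, `π = F.mkQ`, `q = finrank (V.map π)`.  Choose a basis `b` of `V.map π`
indexed by `Fin q`; by `hz` each `b k = π (ev z (u k))` with `u k ∈ Syz V`; put `g k = ev z (u k)`.
(i) `Sum.elim g f` is linearly independent (apply `π`; then `linearIndependent_of_reg`).
(ii) every `w ∈ V` is `∑ s, α s • g s + ∑ i, β i • f i` (`π w` is a combination of the `b k`, the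
difference lies in `ker π = F`).
Rows: `Fin.cons v u : Fin (q+1) → _`; choose coordinates `γ r j s`, `ph r j i` of the entries by
(ii); `key_det` applies.  By (i), the coordinates of `ev z (row r) = ∑ j, z j • row r j` are:
for `r = k.succ` (value `g k`): `∑ j, z j * γ r j s = δ_ks`, `∑ j, z j * ph r j i = 0`; for `r = 0`
(value in `F`): `∑ j, z j * γ 0 j s = 0`.  So the matrix of `key_det` is
`diagonal (Fin.cons (∑ j, z j * ph 0 j i) 1)`, with determinant `∑ j, z j * ph 0 j i`, which
therefore vanishes for all `i`; hence `ev z v = 0`. -/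
theorem key {c a : ℕ} (f : Fin c → Pol K n) (hf : ∀ i, (f i).IsHomogeneous a)
    (hreg : IsRegSeq f) (V : Submodule K (Pol K n)) [FiniteDimensional K V]
    (hFV : Submodule.span K (Set.range f) ≤ V)
    (hq : finrank K (V.map (Submodule.span K (Set.range f)).mkQ) + 2 ≤ a) (z : Fin n → K)
    (hz : (Syz V).map ((Submodule.span K (Set.range f)).mkQ ∘ₗ ev z)
      = V.map (Submodule.span K (Set.range f)).mkQ)
    (v : Fin n → Pol K n) (hv : v ∈ Syz V) (hvz : ev z v ∈ Submodule.span K (Set.range f)) :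
    ev z v = 0 := by
  classical
  set F := Submodule.span K (Set.range f) with hF
  set W := V.map F.mkQ with hW
  set q := finrank K W with hqdef
  have ha : 0 < a := by omega
  have hli := linearIndependent_of_reg f hf hreg ha
  let b : Basis (Fin q) K W := Module.finBasisOfFinrankEq K W rfl
  have hu : ∀ k : Fin q, ∃ u ∈ Syz V, F.mkQ (ev z u) = ((b k : W) : Pol K n ⧸ F) := by
    intro k
    have hk : ((b k : W) : Pol K n ⧸ F) ∈ (Syz V).map (F.mkQ ∘ₗ ev z) := by
      rw [hz]; exact (b k).2
    obtain ⟨u, hu, hue⟩ := hk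
    exact ⟨u, hu, hue⟩
  choose u huS hub using hu
  set g : Fin q → Pol K n := fun k => ev z (u k) with hg
  have hfF : ∀ i, F.mkQ (f i) = 0 := by
    intro i
    rw [← LinearMap.mem_ker, Submodule.ker_mkQ]
    exact Submodule.subset_span ⟨i, rfl⟩
  -- (ii)
  have hcoord : ∀ w ∈ V, ∃ (α : Fin q → K) (β : Fin c → K),
      w = ∑ s, α s • g s + ∑ i, β i • f i := by
    intro w hw
    have hwW : F.mkQ w ∈ W := Submodule.mem_map_of_mem hw
    obtain ⟨α, h1⟩ : ∃ α : Fin q → K, F.mkQ w = ∑ s, α s • F.mkQ (g s) := by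
      refine ⟨fun s => b.repr ⟨F.mkQ w, hwW⟩ s, ?_⟩
      have h2 := congrArg (Subtype.val) (b.sum_repr ⟨F.mkQ w, hwW⟩)
      rw [AddSubmonoidClass.coe_finsetSum] at h2
      refine (show F.mkQ w = _ from h2.symm).trans ?_
      refine Finset.sum_congr rfl (fun s _ => ?_)
      rw [hub s]
      rfl
    have h3 : w - ∑ s, α s • g s ∈ F := by
      rw [← Submodule.Quotient.mk_eq_zero, ← Submodule.mkQ_apply, map_sub, map_sum]
      simp_rw [map_smul]
      rw [← h1, sub_self]
    obtain ⟨β, hβ⟩ := (Submodule.mem_span_range_iff_exists_fun K).1 h3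
    exact ⟨α, β, by rw [hβ]; abel⟩
  -- (i)
  have huniq : ∀ (α : Fin q → K) (β : Fin c → K), ∑ s, α s • g s + ∑ i, β i • f i = 0 →
      (∀ s, α s = 0) ∧ ∀ i, β i = 0 := by
    intro α β h0
    have h1 : ∑ s, α s • (b s) = 0 := by
      apply Subtype.ext
      have h2 := congrArg F.mkQ h0
      rw [map_add, map_sum, map_sum, map_zero] at h2
      simp_rw [map_smul, hfF, smul_zero, Finset.sum_const_zero, add_zero] at h2
      rw [AddSubmonoidClass.coe_finsetSum]
      refine Eq.trans ?_ (h2.trans (ZeroMemClass.coe_zero W).symm)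
      refine Finset.sum_congr rfl (fun s _ => ?_)
      rw [hub s]
      rfl
    have hα := Fintype.linearIndependent_iff.1 b.linearIndependent α h1
    refine ⟨hα, ?_⟩
    have h2 : ∑ i, β i • f i = 0 := by simpa [hα] using h0
    exact Fintype.linearIndependent_iff.1 hli β h2
  -- rows
  let row : Fin (q + 1) → (Fin n → Pol K n) := Fin.cons v u
  have hrow0 : row 0 = v := rfl
  have hrowS : ∀ k : Fin q, row k.succ = u k := fun k => rfl
  have hrow : ∀ r, row r ∈ Syz V := by
    intro r
    refine Fin.cases ?_ (fun k => ?_) r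
    · rw [hrow0]; exact hv
    · rw [hrowS]; exact huS k
  have hc : ∀ r j, ∃ (α : Fin q → K) (β : Fin c → K),
      row r j = ∑ s, α s • g s + ∑ i, β i • f i :=
    fun r j => hcoord _ ((mem_Syz.1 (hrow r)).1 j)
  choose γ ph hγ using hc
  have hdet := key_det f hf hreg (by omega : q + 1 < a) g γ ph (by
    intro r
    have h1 := (mem_Syz.1 (hrow r)).2
    rw [← h1]
    refine Finset.sum_congr rfl (fun j _ => ?_)
    rw [hγ r j]
    simp_rw [MvPolynomial.smul_eq_C_mul]) z
  have hev : ∀ r, ev z (row r) = ∑ s, (∑ j, z j * γ r j s) • g s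
      + ∑ i, (∑ j, z j * ph r j i) • f i := by
    intro r
    rw [ev_apply]
    calc ∑ j, z j • row r j
        = ∑ j, (∑ s, (z j * γ r j s) • g s + ∑ i, (z j * ph r j i) • f i) := by
          refine Finset.sum_congr rfl (fun j _ => ?_)
          rw [hγ r j, smul_add, Finset.smul_sum, Finset.smul_sum]
          simp_rw [smul_smul]
      _ = ∑ j, ∑ s, (z j * γ r j s) • g s + ∑ j, ∑ i, (z j * ph r j i) • f i :=
          Finset.sum_add_distrib
      _ = _ := by
          rw [Finset.sum_comm, Finset.sum_comm (f := fun j i => (z j * ph r j i) • f i)]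
          simp_rw [Finset.sum_smul]
  have hsucc : ∀ k : Fin q, (∀ s, (∑ j, z j * γ k.succ j s) = if s = k then 1 else 0) ∧
      ∀ i, ∑ j, z j * ph k.succ j i = 0 := by
    intro k
    have h1 := hev k.succ
    have h2 : ev z (row k.succ) = g k := by rw [hrowS]
    rw [h2] at h1
    have h3 : ∑ s, ((∑ j, z j * γ k.succ j s) - if s = k then 1 else 0) • g s
        + ∑ i, (∑ j, z j * ph k.succ j i) • f i = 0 := by
      simp_rw [sub_smul, Finset.sum_sub_distrib, ite_smul, one_smul, zero_smul]
      rw [Finset.sum_ite_eq' Finset.univ k g, if_pos (Finset.mem_univ k)]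
      rw [sub_add_eq_add_sub, ← h1, sub_self]
    obtain ⟨hA, hB⟩ := huniq _ _ h3
    exact ⟨fun s => sub_eq_zero.1 (hA s), hB⟩
  obtain ⟨β0, hβ0⟩ := (Submodule.mem_span_range_iff_exists_fun K).1 hvz
  have hzero : ∀ s, ∑ j, z j * γ 0 j s = 0 := by
    have h1 := hev 0
    rw [hrow0, ← hβ0] at h1
    have h3 : ∑ s, (∑ j, z j * γ 0 j s) • g s
        + ∑ i, ((∑ j, z j * ph 0 j i) - β0 i) • f i = 0 := by
      simp_rw [sub_smul, Finset.sum_sub_distrib]
      rw [h1]
      abel
    exact (huniq _ _ h3).1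
  have hB0 : ∀ i, ∑ j, z j * ph 0 j i = 0 := by
    intro i
    have hd := hdet i
    have hM : (Matrix.of fun (r t : Fin (q + 1)) =>
        (Fin.cons (∑ j, z j * ph r j i) (fun s => ∑ j, z j * γ r j s) : Fin (q + 1) → K) t)
        = Matrix.diagonal (Fin.cons (∑ j, z j * ph 0 j i) (fun _ => 1)) := by
      ext r t
      refine Fin.cases ?_ (fun k => ?_) r <;> refine Fin.cases ?_ (fun s => ?_) t
      · simp
      · rw [Matrix.diagonal_apply_ne _ (Fin.succ_ne_zero s).symm]
        simp [hzero s]
      · rw [Matrix.diagonal_apply_ne _ (Fin.succ_ne_zero k)]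
        simp [(hsucc k).2 i]
      · by_cases hks : s = k
        · subst hks
          simp [(hsucc s).1 s]
        · rw [Matrix.diagonal_apply_ne _ (fun h => hks (Fin.succ_injective _ h).symm)]
          simp [(hsucc k).1 s, hks]
    rw [hM, Matrix.det_diagonal, Fin.prod_univ_succ] at hd
    simpa using hd
  have h1 := hev 0
  rw [hrow0] at h1
  rw [h1]
  simp [hzero, hB0]

end Vale.Agent.Lib.P200
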