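import Vale.Agent.Lib.P200.GKeyDet
import Vale.Agent.Lib.P200.Key

/-!
# P200, mixed degrees: the key lemma
-/

namespace Vale.Agent.Lib.P200

open Module MvPolynomial

variable {K : Type} [Field K] {n : ℕ}

/-- ADAPT the proof of `key` in `Key.lean` (copy it; replace `Syz V` by `SyzE E V`,
`linearIndependent_of_reg ..` by `hLI`, `key_det` by `key_det2`).  New: every row `w` (that is `v`
or `u k`) lies in `SyzE E V`, so `∑ j, X j * w j ∈ span (range h)`, i.e. it equals
`∑ t, ψ t • h t` (`Submodule.mem_span_range_iff_exists_fun`); this gives `ψ r t`.  First part of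
`key_det2`: as before, `ev z v = 0`.  Second part: the matrix has first column `ψ r t'`, first row
`(ψ 0 t', 0, ..., 0)` and the identity below, so it is lower triangular
(`Matrix.det_of_lowerTriangular`, or expand along the first row `Matrix.det_succ_row_zero`) with
determinant `ψ 0 t'`; so `ψ 0 t' = 0` for all `t'`, i.e. `mu K n v = ∑ j, X j * v j = 0`
(`mu_apply`). -/
theorem key2 {c e a : ℕ} (f : Fin c → Pol K n) (h : Fin e → Pol K n)
    (hLI : LinearIndependent K f) (hNL : NoLow a f h)
    (V : Submodule K (Pol K n)) [FiniteDimensional K V]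
    (hFV : Submodule.span K (Set.range f) ≤ V)
    (hq : finrank K (V.map (Submodule.span K (Set.range f)).mkQ) + 2 ≤ a) (z : Fin n → K)
    (hz : (SyzE (Submodule.span K (Set.range h)) V).map
        ((Submodule.span K (Set.range f)).mkQ ∘ₗ ev z)
      = V.map (Submodule.span K (Set.range f)).mkQ)
    (v : Fin n → Pol K n) (hv : v ∈ SyzE (Submodule.span K (Set.range h)) V)
    (hvz : ev z v ∈ Submodule.span K (Set.range f)) :
    ev z v = 0 ∧ mu K n v = 0 := by
  classical
  set F := Submodule.span K (Set.range f) with hF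
  set E := Submodule.span K (Set.range h) with hE
  set W := V.map F.mkQ with hW
  set q := finrank K W with hqdef
  have hli := hLI
  let b : Basis (Fin q) K W := Module.finBasisOfFinrankEq K W rfl
  have hu : ∀ k : Fin q, ∃ u ∈ SyzE E V, F.mkQ (ev z u) = ((b k : W) : Pol K n ⧸ F) := by
    intro k
    have hk : ((b k : W) : Pol K n ⧸ F) ∈ (SyzE E V).map (F.mkQ ∘ₗ ev z) := by
      rw [hz]; exact (b k).2
    obtain ⟨u, hu, hue⟩ := hk
    exact ⟨u, hu, hue⟩
  choose u huS hub using hu
  set g : Fin q → Pol K n := fun k => ev z (u k) with hg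
  have hfF : ∀ i, F.mkQ (f i) = 0 := by
    intro i
    rw [← LinearMap.mem_ker, Submodule.ker_mkQ]
    exact Submodule.subset_span ⟨i, rfl⟩
  -- (ii)
  have hcoord : ∀ w ∈ V, ∃ (α : Fin q → K) (β : Fin c → K),
      w = ∑ s, α s • g s + ∑ i, β i • f i := by
    intro w hw
    have hwW : F.mkQ w ∈ W := Submodule.mem_map_of_mem hw
    obtain ⟨α, h1⟩ : ∃ α : Fin q → K, F.mkQ w = ∑ s, α s • F.mkQ (g s) := by
      refine ⟨fun s => b.repr ⟨F.mkQ w, hwW⟩ s, ?_⟩
      have h2 := congrArg (Subtype.val) (b.sum_repr ⟨F.mkQ w, hwW⟩)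
      rw [AddSubmonoidClass.coe_finsetSum] at h2
      refine (show F.mkQ w = _ from h2.symm).trans ?_
      refine Finset.sum_congr rfl (fun s _ => ?_)
      rw [hub s]
      rfl
    have h3 : w - ∑ s, α s • g s ∈ F := by
      rw [← Submodule.Quotient.mk_eq_zero, ← Submodule.mkQ_apply, map_sub, map_sum]
      simp_rw [map_smul]
      rw [← h1, sub_self]
    obtain ⟨β, hβ⟩ := (Submodule.mem_span_range_iff_exists_fun K).1 h3
    exact ⟨α, β, by rw [hβ]; abel⟩
  -- (i)
  have huniq : ∀ (α : Fin q → K) (β : Fin c → K), ∑ s, α s • g s + ∑ i, β i • f i = 0 →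
      (∀ s, α s = 0) ∧ ∀ i, β i = 0 := by
    intro α β h0
    have h1 : ∑ s, α s • (b s) = 0 := by
      apply Subtype.ext
      have h2 := congrArg F.mkQ h0
      rw [map_add, map_sum, map_sum, map_zero] at h2
      simp_rw [map_smul, hfF, smul_zero, Finset.sum_const_zero, add_zero] at h2
      rw [AddSubmonoidClass.coe_finsetSum]
      refine Eq.trans ?_ (h2.trans (ZeroMemClass.coe_zero W).symm)
      refine Finset.sum_congr rfl (fun s _ => ?_)
      rw [hub s]
      rfl
    have hα := Fintype.linearIndependent_iff.1 b.linearIndependent α h1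
    refine ⟨hα, ?_⟩
    have h2 : ∑ i, β i • f i = 0 := by simpa [hα] using h0
    exact Fintype.linearIndependent_iff.1 hli β h2
  -- rows
  let row : Fin (q + 1) → (Fin n → Pol K n) := Fin.cons v u
  have hrow0 : row 0 = v := rfl
  have hrowS : ∀ k : Fin q, row k.succ = u k := fun k => rfl
  have hrow : ∀ r, row r ∈ SyzE E V := by
    intro r
    refine Fin.cases ?_ (fun k => ?_) r
    · rw [hrow0]; exact hv
    · rw [hrowS]; exact huS k
  have hc : ∀ r j, ∃ (α : Fin q → K) (β : Fin c → K),
      row r j = ∑ s, α s • g s + ∑ i, β i • f i :=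
    fun r j => hcoord _ ((mem_SyzE.1 (hrow r)).1 j)
  choose γ ph hγ using hc
  have hp : ∀ r, ∃ c' : Fin e → K, ∑ t, c' t • h t = ∑ j, X j * row r j :=
    fun r => (Submodule.mem_span_range_iff_exists_fun K).1 (mem_SyzE.1 (hrow r)).2
  choose ψ hψ using hp
  have hdet2 := key_det2 f h hNL (by omega : q + 1 < a) g γ ph ψ (by
    intro r
    have h1 := hψ r
    simp_rw [MvPolynomial.smul_eq_C_mul] at h1
    rw [h1]
    refine Finset.sum_congr rfl (fun j _ => ?_)
    rw [hγ r j]
    simp_rw [MvPolynomial.smul_eq_C_mul]) z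
  have hdet := hdet2.1
  have hev : ∀ r, ev z (row r) = ∑ s, (∑ j, z j * γ r j s) • g s
      + ∑ i, (∑ j, z j * ph r j i) • f i := by
    intro r
    rw [ev_apply]
    calc ∑ j, z j • row r j
        = ∑ j, (∑ s, (z j * γ r j s) • g s + ∑ i, (z j * ph r j i) • f i) := by
          refine Finset.sum_congr rfl (fun j _ => ?_)
          rw [hγ r j, smul_add, Finset.smul_sum, Finset.smul_sum]
          simp_rw [smul_smul]
      _ = ∑ j, ∑ s, (z j * γ r j s) • g s + ∑ j, ∑ i, (z j * ph r j i) • f i :=
          Finset.sum_add_distrib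
      _ = _ := by
          rw [Finset.sum_comm, Finset.sum_comm (f := fun j i => (z j * ph r j i) • f i)]
          simp_rw [Finset.sum_smul]
  have hsucc : ∀ k : Fin q, (∀ s, (∑ j, z j * γ k.succ j s) = if s = k then 1 else 0) ∧
      ∀ i, ∑ j, z j * ph k.succ j i = 0 := by
    intro k
    have h1 := hev k.succ
    have h2 : ev z (row k.succ) = g k := by rw [hrowS]
    rw [h2] at h1
    have h3 : ∑ s, ((∑ j, z j * γ k.succ j s) - if s = k then 1 else 0) • g s
        + ∑ i, (∑ j, z j * ph k.succ j i) • f i = 0 := by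
      simp_rw [sub_smul, Finset.sum_sub_distrib, ite_smul, one_smul, zero_smul]
      rw [Finset.sum_ite_eq' Finset.univ k g, if_pos (Finset.mem_univ k)]
      rw [sub_add_eq_add_sub, ← h1, sub_self]
    obtain ⟨hA, hB⟩ := huniq _ _ h3
    exact ⟨fun s => sub_eq_zero.1 (hA s), hB⟩
  obtain ⟨β0, hβ0⟩ := (Submodule.mem_span_range_iff_exists_fun K).1 hvz
  have hzero : ∀ s, ∑ j, z j * γ 0 j s = 0 := by
    have h1 := hev 0
    rw [hrow0, ← hβ0] at h1
    have h3 : ∑ s, (∑ j, z j * γ 0 j s) • g s
        + ∑ i, ((∑ j, z j * ph 0 j i) - β0 i) • f i = 0 := by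
      simp_rw [sub_smul, Finset.sum_sub_distrib]
      rw [h1]
      abel
    exact (huniq _ _ h3).1
  have hB0 : ∀ i, ∑ j, z j * ph 0 j i = 0 := by
    intro i
    have hd := hdet i
    have hM : (Matrix.of fun (r t : Fin (q + 1)) =>
        (Fin.cons (∑ j, z j * ph r j i) (fun s => ∑ j, z j * γ r j s) : Fin (q + 1) → K) t)
        = Matrix.diagonal (Fin.cons (∑ j, z j * ph 0 j i) (fun _ => 1)) := by
      ext r t
      refine Fin.cases ?_ (fun k => ?_) r <;> refine Fin.cases ?_ (fun s => ?_) t
      · simp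
      · rw [Matrix.diagonal_apply_ne _ (Fin.succ_ne_zero s).symm]
        simp [hzero s]
      · rw [Matrix.diagonal_apply_ne _ (Fin.succ_ne_zero k)]
        simp [(hsucc k).2 i]
      · by_cases hks : s = k
        · subst hks
          simp [(hsucc s).1 s]
        · rw [Matrix.diagonal_apply_ne _ (fun h => hks (Fin.succ_injective _ h).symm)]
          simp [(hsucc k).1 s, hks]
    rw [hM, Matrix.det_diagonal, Fin.prod_univ_succ] at hd
    simpa using hd
  have hψ0 : ∀ t', ψ 0 t' = 0 := by
    intro t'
    have hd := hdet2.2 t'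
    rw [Matrix.det_of_lowerTriangular] at hd
    · rw [Fin.prod_univ_succ] at hd
      simp only [Matrix.of_apply, Fin.cons_zero, Fin.cons_succ] at hd
      have hone : ∀ k : Fin q, (∑ j, z j * γ k.succ j k) = 1 := by
        intro k
        rw [(hsucc k).1 k, if_pos rfl]
      simp only [hone, Finset.prod_const_one, mul_one] at hd
      exact hd
    · intro r t hrt
      have hrt' : r < t := hrt
      revert hrt'
      refine Fin.cases ?_ (fun s => ?_) t
      · intro hlt
        exact absurd hlt (Fin.not_lt_zero r)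
      · refine Fin.cases ?_ (fun k => ?_) r
        · intro _
          simp only [Matrix.of_apply, Fin.cons_succ]
          exact hzero s
        · intro hlt
          simp only [Matrix.of_apply, Fin.cons_succ]
          rw [(hsucc k).1 s, if_neg]
          intro hsk
          rw [hsk] at hlt
          exact lt_irrefl _ hlt
  constructor
  · have h1 := hev 0
    rw [hrow0] at h1
    rw [h1]
    simp [hzero, hB0]
  · rw [mu_apply]
    have h1 := hψ 0
    rw [hrow0] at h1
    rw [← h1]
    simp [hψ0]

end Vale.Agent.Lib.P200
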