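import Vale.Agent.Lib.P200.Low

/-!
# P200: the determinantal identity
-/

namespace Vale.Agent.Lib.P200

open Module MvPolynomial

variable {K : Type} [Field K] {n : ℕ}

/-- the determinant of a matrix of linear forms is a form (`Matrix.det_apply'`,
`IsHomogeneous.sum`, `IsHomogeneous.prod`, `IsHomogeneous.mul`, integer casts are homogeneous of
degree `0`) -/
theorem det_isHomogeneous {m : ℕ} (M : Matrix (Fin m) (Fin m) (Pol K n))
    (hM : ∀ r t, (M r t).IsHomogeneous 1) : M.det.IsHomogeneous m := by
  rw [Matrix.det_apply']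
  refine IsHomogeneous.sum _ _ _ (fun σ _ => ?_)
  have h1 : (((Equiv.Perm.sign σ : ℤ) : Pol K n)).IsHomogeneous 0 := by
    have : (((Equiv.Perm.sign σ : ℤ) : Pol K n)) = C (((Equiv.Perm.sign σ : ℤ) : K)) := by
      simp
    rw [this]
    exact isHomogeneous_C _ _
  have h2 : (∏ i, M (σ i) i).IsHomogeneous m := by
    have := IsHomogeneous.prod Finset.univ (fun i => M (σ i) i) (fun _ => 1)
      (fun i _ => hM (σ i) i)
    simpa using this
  have := h1.mul h2
  simpa using this

/-- the matrix with first column `col` and the other columns `Lf` -/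
noncomputable def Nmat {q : ℕ} (Lf : Fin (q + 1) → Fin q → Pol K n) (col : Fin (q + 1) → Pol K n) :
    Matrix (Fin (q + 1)) (Fin (q + 1)) (Pol K n) :=
  Matrix.of fun r t => (Fin.cons (col r) (Lf r) : Fin (q + 1) → Pol K n) t

lemma det_Nmat {q : ℕ} (Lf : Fin (q + 1) → Fin q → Pol K n) (col : Fin (q + 1) → Pol K n) :
    (Nmat Lf col).det = ∑ r : Fin (q + 1), (-1) ^ (r : ℕ) * col r *
      (Matrix.of fun (r' : Fin q) (s : Fin q) => Lf (r.succAbove r') s).det := by
  rw [Matrix.det_succ_column_zero]
  refine Finset.sum_congr rfl (fun r _ => ?_)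
  congr 1

lemma linform_isHomogeneous (a : Fin n → K) :
    (∑ j, C (a j) * X j : Pol K n).IsHomogeneous 1 :=
  IsHomogeneous.sum _ _ _ (fun _ _ => isHomogeneous_C_mul_X _ _)

/-- Let `Lf r s = ∑ j, C (γ r j s) * X j`, `La r i = ∑ j, C (ph r j i) * X j`; the hypothesis says
`∑ s, Lf r s * g s + ∑ i, La r i * f i = 0`.  For a column `col : Fin (q+1) → Pol K n` let
`N col = Matrix.of fun r t => Fin.cons (col r) (Lf r) t`.  By `Matrix.det_succ_column_zero`,
`det (N col) = ∑ r, (-1)^r * col r * D r` with `D r` independent of `col`.  Hence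
`∑ i, det (N (La · i)) * f i = det (N β)` with `β r = ∑ i, La r i * f i`, and `det (N β) = 0`
because `N β *ᵥ Fin.cons 1 g = 0` (`Matrix.exists_mulVec_eq_zero_iff`, `Fin.sum_univ_succ`).
`det (N (La · i))` is homogeneous of degree `q + 1 < a` (`det_isHomogeneous`), so it vanishes
(`no_low_syzygy`).  Apply `eval z` (`RingHom.map_det`). -/
theorem key_det {c a q : ℕ} (f : Fin c → Pol K n) (hf : ∀ i, (f i).IsHomogeneous a)
    (hreg : IsRegSeq f) (hq : q + 1 < a) (g : Fin q → Pol K n)
    (γ : Fin (q + 1) → Fin n → Fin q → K) (ph : Fin (q + 1) → Fin n → Fin c → K)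
    (h : ∀ r, ∑ j, X j * (∑ s, C (γ r j s) * g s + ∑ i, C (ph r j i) * f i) = 0)
    (z : Fin n → K) (i : Fin c) :
    Matrix.det (Matrix.of fun (r t : Fin (q + 1)) =>
      (Fin.cons (∑ j, z j * ph r j i) (fun s => ∑ j, z j * γ r j s) : Fin (q + 1) → K) t) = 0 := by
  set Lf : Fin (q + 1) → Fin q → Pol K n := fun r s => ∑ j, C (γ r j s) * X j with hLf
  set La : Fin (q + 1) → Fin c → Pol K n := fun r i => ∑ j, C (ph r j i) * X j with hLa
  have hrel : ∀ r, ∑ s, Lf r s * g s + ∑ i, La r i * f i = 0 := by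
    intro r
    rw [← h r]
    simp only [hLf, hLa, mul_add, Finset.mul_sum, Finset.sum_mul, Finset.sum_add_distrib]
    congr 1
    · rw [Finset.sum_comm]
      refine Finset.sum_congr rfl (fun j _ => Finset.sum_congr rfl (fun s _ => ?_))
      ring
    · rw [Finset.sum_comm]
      refine Finset.sum_congr rfl (fun j _ => Finset.sum_congr rfl (fun s _ => ?_))
      ring
  set β : Fin (q + 1) → Pol K n := fun r => ∑ i, La r i * f i with hβ
  have hdetβ : (Nmat Lf β).det = 0 := by
    rw [← Matrix.exists_mulVec_eq_zero_iff]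
    refine ⟨(Fin.cons 1 g : Fin (q + 1) → Pol K n), ?_, ?_⟩
    · intro h0
      have := congrFun h0 0
      simp at this
    · funext r
      simp only [Matrix.mulVec, dotProduct, Nmat, Matrix.of_apply, Fin.sum_univ_succ, Fin.cons_zero,
        Fin.cons_succ, mul_one, Pi.zero_apply]
      have := hrel r
      rw [add_comm] at this
      exact this
  have hsum : ∑ i, (Nmat Lf (fun r => La r i)).det * f i = 0 := by
    rw [← hdetβ, det_Nmat Lf β]
    simp only [det_Nmat, Finset.sum_mul]
    rw [Finset.sum_comm]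
    refine Finset.sum_congr rfl (fun r _ => ?_)
    simp only [hβ, Finset.mul_sum, Finset.sum_mul]
    refine Finset.sum_congr rfl (fun i _ => ?_)
    ring
  have hhom : ∀ i, ((Nmat Lf (fun r => La r i)).det).IsHomogeneous (q + 1) := by
    intro i
    apply det_isHomogeneous
    intro r t
    refine Fin.cases ?_ (fun s => ?_) t
    · simp only [Nmat, Matrix.of_apply, Fin.cons_zero]
      exact linform_isHomogeneous _
    · simp only [Nmat, Matrix.of_apply, Fin.cons_succ]
      exact linform_isHomogeneous _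
  have hzero := no_low_syzygy f hf hreg hq _ hhom hsum i
  have hev := congrArg (eval z) hzero
  rw [RingHom.map_det, map_zero] at hev
  rw [← hev]
  congr 1
  ext r t
  refine Fin.cases ?_ (fun s => ?_) t
  · simp only [Nmat, Matrix.of_apply, Fin.cons_zero, RingHom.mapMatrix_apply, Matrix.map_apply, hLa,
      map_sum, map_mul, eval_C, eval_X]
    exact Finset.sum_congr rfl (fun j _ => mul_comm _ _)
  · simp only [Nmat, Matrix.of_apply, Fin.cons_succ, RingHom.mapMatrix_apply, Matrix.map_apply, hLf,
      map_sum, map_mul, eval_C, eval_X]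
    exact Finset.sum_congr rfl (fun j _ => mul_comm _ _)

end Vale.Agent.Lib.P200
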