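import Vale.Agent.Lib.P200.GDefs
import Vale.Agent.Lib.P200.KeyDet

/-!
# P200, mixed degrees: the determinantal identity
-/

namespace Vale.Agent.Lib.P200

open Module MvPolynomial

variable {K : Type} [Field K] {n : ℕ}

lemma det_Nmat_sum {q m : ℕ} (Lf : Fin (q + 1) → Fin q → Pol K n)
    (col : Fin (q + 1) → Fin m → Pol K n) (w : Fin m → Pol K n) :
    ∑ i, (Nmat Lf (fun r => col r i)).det * w i = (Nmat Lf (fun r => ∑ i, col r i * w i)).det := by
  simp only [det_Nmat, Finset.sum_mul]
  rw [Finset.sum_comm]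
  refine Finset.sum_congr rfl (fun r _ => ?_)
  simp only [Finset.mul_sum, Finset.sum_mul]
  refine Finset.sum_congr rfl (fun i _ => ?_)
  ring

lemma det_Nmat_sub {q : ℕ} (Lf : Fin (q + 1) → Fin q → Pol K n)
    (c1 c2 : Fin (q + 1) → Pol K n) :
    (Nmat Lf (fun r => c1 r - c2 r)).det = (Nmat Lf c1).det - (Nmat Lf c2).det := by
  simp only [det_Nmat, ← Finset.sum_sub_distrib]
  refine Finset.sum_congr rfl (fun r _ => ?_)
  ring

lemma det_Nmat_const_isHomogeneous {q : ℕ} (Lf : Fin (q + 1) → Fin q → Pol K n)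
    (hLf : ∀ r s, (Lf r s).IsHomogeneous 1) (x : Fin (q + 1) → K) :
    ((Nmat Lf (fun r => C (x r))).det).IsHomogeneous q := by
  rw [det_Nmat]
  refine IsHomogeneous.sum _ _ _ (fun r _ => ?_)
  have h0 : ((-1) ^ (r : ℕ) * C (x r) : Pol K n) = C ((-1) ^ (r : ℕ) * x r) := by
    simp
  rw [h0]
  have h1 : (C ((-1) ^ (r : ℕ) * x r) : Pol K n).IsHomogeneous 0 := isHomogeneous_C _ _
  have h2 : ((Matrix.of fun (r' : Fin q) (s : Fin q) => Lf (r.succAbove r') s).det).IsHomogeneous q :=
    det_isHomogeneous _ (fun r' s => hLf _ _)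
  have := h1.mul h2
  simpa using this

/-- ADAPT the proof of `key_det` in `KeyDet.lean` (you may use `Nmat`, `det_Nmat`,
`det_isHomogeneous`, `linform_isHomogeneous` from there).  With `Lf r s = ∑ j, C (γ r j s) * X j`,
`La r i = ∑ j, C (ph r j i) * X j`, the hypothesis says
`∑ s, Lf r s * g s + (∑ i, La r i * f i - ∑ t, C (ψ r t) * h t) = 0`.  Put
`β r = ∑ i, La r i * f i - ∑ t, C (ψ r t) * h t`; then `det (Nmat Lf β) = 0` as before, and by
`det_Nmat` (linearity in the first column)
`∑ i, det (Nmat Lf (La · i)) * f i + ∑ t, (- det (Nmat Lf (fun r => C (ψ r t)))) * h t = 0`.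
The first determinants are homogeneous of degree `q + 1`; the second ones of degree `q` (by
`det_Nmat`: a sum of constants times `q × q` determinants of linear forms, `det_isHomogeneous`).
Apply `hNL q`.  Then apply `eval z` as before. -/
theorem key_det2 {c e a q : ℕ} (f : Fin c → Pol K n) (h : Fin e → Pol K n)
    (hNL : NoLow a f h) (hq : q + 1 < a) (g : Fin q → Pol K n)
    (γ : Fin (q + 1) → Fin n → Fin q → K) (ph : Fin (q + 1) → Fin n → Fin c → K)
    (ψ : Fin (q + 1) → Fin e → K)
    (hrel : ∀ r, ∑ j, X j * (∑ s, C (γ r j s) * g s + ∑ i, C (ph r j i) * f i)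
      = ∑ t, C (ψ r t) * h t)
    (z : Fin n → K) :
    (∀ i : Fin c, Matrix.det (Matrix.of fun (r t : Fin (q + 1)) =>
      (Fin.cons (∑ j, z j * ph r j i) (fun s => ∑ j, z j * γ r j s) : Fin (q + 1) → K) t) = 0) ∧
    (∀ t' : Fin e, Matrix.det (Matrix.of fun (r t : Fin (q + 1)) =>
      (Fin.cons (ψ r t') (fun s => ∑ j, z j * γ r j s) : Fin (q + 1) → K) t) = 0) := by
  set Lf : Fin (q + 1) → Fin q → Pol K n := fun r s => ∑ j, C (γ r j s) * X j with hLf
  set La : Fin (q + 1) → Fin c → Pol K n := fun r i => ∑ j, C (ph r j i) * X j with hLa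
  have hrel' : ∀ r, ∑ s, Lf r s * g s + ∑ i, La r i * f i = ∑ t, C (ψ r t) * h t := by
    intro r
    rw [← hrel r]
    simp only [hLf, hLa, mul_add, Finset.mul_sum, Finset.sum_mul, Finset.sum_add_distrib]
    congr 1
    · rw [Finset.sum_comm]
      refine Finset.sum_congr rfl (fun j _ => Finset.sum_congr rfl (fun s _ => ?_))
      ring
    · rw [Finset.sum_comm]
      refine Finset.sum_congr rfl (fun j _ => Finset.sum_congr rfl (fun s _ => ?_))
      ring
  have hdetβ : (Nmat Lf (fun r => ∑ i, La r i * f i - ∑ t, C (ψ r t) * h t)).det = 0 := by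
    rw [← Matrix.exists_mulVec_eq_zero_iff]
    refine ⟨(Fin.cons 1 g : Fin (q + 1) → Pol K n), ?_, ?_⟩
    · intro h0
      have := congrFun h0 0
      simp at this
    · funext r
      simp only [Matrix.mulVec, dotProduct, Nmat, Matrix.of_apply, Fin.sum_univ_succ, Fin.cons_zero,
        Fin.cons_succ, mul_one, Pi.zero_apply]
      have := hrel' r
      linear_combination this
  have hsum : ∑ i, (Nmat Lf (fun r => La r i)).det * f i
      + ∑ t, (-(Nmat Lf (fun r => C (ψ r t))).det) * h t = 0 := by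
    rw [← hdetβ, det_Nmat_sub, ← det_Nmat_sum Lf La f, ← det_Nmat_sum Lf (fun r t => C (ψ r t)) h]
    simp only [neg_mul, Finset.sum_neg_distrib]
    ring
  have hLfhom : ∀ r s, (Lf r s).IsHomogeneous 1 := fun r s => linform_isHomogeneous _
  have hhom : ∀ i, ((Nmat Lf (fun r => La r i)).det).IsHomogeneous (q + 1) := by
    intro i
    apply det_isHomogeneous
    intro r t
    refine Fin.cases ?_ (fun s => ?_) t
    · simp only [Nmat, Matrix.of_apply, Fin.cons_zero]
      exact linform_isHomogeneous _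
    · simp only [Nmat, Matrix.of_apply, Fin.cons_succ]
      exact linform_isHomogeneous _
  have hhom2 : ∀ t, (-(Nmat Lf (fun r => C (ψ r t))).det).IsHomogeneous q := by
    intro t
    exact (det_Nmat_const_isHomogeneous Lf hLfhom (fun r => ψ r t)).neg
  obtain ⟨hz1, hz2⟩ := hNL q _ _ hq hhom hhom2 hsum
  constructor
  · intro i
    have hev := congrArg (eval z) (hz1 i)
    rw [RingHom.map_det, map_zero] at hev
    rw [← hev]
    congr 1
    ext r t
    refine Fin.cases ?_ (fun s => ?_) t
    · simp only [Nmat, Matrix.of_apply, Fin.cons_zero, RingHom.mapMatrix_apply, Matrix.map_apply,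
        hLa, map_sum, map_mul, eval_C, eval_X]
      exact Finset.sum_congr rfl (fun j _ => mul_comm _ _)
    · simp only [Nmat, Matrix.of_apply, Fin.cons_succ, RingHom.mapMatrix_apply, Matrix.map_apply,
        hLf, map_sum, map_mul, eval_C, eval_X]
      exact Finset.sum_congr rfl (fun j _ => mul_comm _ _)
  · intro t'
    have hev := congrArg (eval z) (neg_eq_zero.mp (hz2 t'))
    rw [RingHom.map_det, map_zero] at hev
    rw [← hev]
    congr 1
    ext r t
    refine Fin.cases ?_ (fun s => ?_) t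
    · simp only [Nmat, Matrix.of_apply, Fin.cons_zero, RingHom.mapMatrix_apply, Matrix.map_apply,
        eval_C]
    · simp only [Nmat, Matrix.of_apply, Fin.cons_succ, RingHom.mapMatrix_apply, Matrix.map_apply,
        hLf, map_sum, map_mul, eval_C, eval_X]
      exact Finset.sum_congr rfl (fun j _ => mul_comm _ _)

end Vale.Agent.Lib.P200
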