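import Mathlib

/-!
# P200: finitely many exponent vectors of a given degree
-/

namespace Vale.Agent.Lib.P200

/-- there are finitely many exponent vectors of a given degree (each entry is `≤ d`; e.g. inject
into `Fin n → Fin (d + 1)`, or use `Finset.finsuppAntidiag` / `Finsupp.degree_eq_sum`) -/
theorem finite_degree (n d : ℕ) : {m : Fin n →₀ ℕ | m.degree = d}.Finite := by
  have h : {m : Fin n →₀ ℕ | m.degree = d} ⊆
      ↑(Finset.finsuppAntidiag (Finset.univ : Finset (Fin n)) d) := by
    intro m hm
    have hm' : m.degree = d := hm
    rw [Finset.mem_coe, Finset.mem_finsuppAntidiag]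
    refine ⟨?_, Finset.subset_univ _⟩
    rw [← hm', Finsupp.degree_eq_sum]
  exact (Finset.finite_toSet _).subset h

end Vale.Agent.Lib.P200
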