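import Vale.Agent.Lib.P200.LPPDefs
import Vale.Agent.Lib.P200.LPP0

/-!
# P200: the dimension of `P_d` is the number of monomials of degree `d` in `P`
-/

namespace Vale.Agent.Lib.P200

open Module MvPolynomial

variable {K : Type} [Field K]

private lemma powIdeal_eq (n c a : ℕ) :
    PowIdeal K n c a = Ideal.span ((fun s => monomial s (1 : K)) ''
      {s : Fin n →₀ ℕ | ∃ i : Fin n, i.val < c ∧ s = Finsupp.single i a}) := by
  unfold PowIdeal
  congr 1
  ext p
  constructor
  · rintro ⟨i, hi, rfl⟩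
    exact ⟨Finsupp.single i a, ⟨i, hi, rfl⟩, (X_pow_eq_monomial).symm⟩
  · rintro ⟨s, ⟨i, hi, rfl⟩, rfl⟩
    exact ⟨i, hi, (X_pow_eq_monomial).symm⟩

private lemma mem_powIdeal (n c a : ℕ) (p : MvPolynomial (Fin n) K) :
    p ∈ PowIdeal K n c a ↔ ∀ m ∈ p.support, ∃ i : Fin n, i.val < c ∧ a ≤ m i := by
  rw [powIdeal_eq, mem_ideal_span_monomial_image]
  constructor
  · intro h m hm
    obtain ⟨s, ⟨i, hi, rfl⟩, hs⟩ := h m hm
    exact ⟨i, hi, Finsupp.single_le_iff.1 hs⟩
  · intro h m hm
    obtain ⟨i, hi, ha⟩ := h m hm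
    exact ⟨Finsupp.single i a, ⟨i, hi, rfl⟩, Finsupp.single_le_iff.2 ha⟩

private lemma part_eq_span (n c a d : ℕ) :
    part (PowIdeal K n c a) d = Submodule.span K (Set.range
      (fun m : {m : Fin n →₀ ℕ | m.degree = d ∧ ∃ i : Fin n, i.val < c ∧ a ≤ m i} =>
        monomial (m : Fin n →₀ ℕ) (1 : K))) := by
  apply le_antisymm
  · intro p hp
    obtain ⟨hpP, hph⟩ := hp
    have hpP' : p ∈ PowIdeal K n c a := hpP
    have hph' : p.IsHomogeneous d := hph
    rw [mem_powIdeal] at hpP'
    rw [← support_sum_monomial_coeff p]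
    refine Submodule.sum_mem _ fun m hm => ?_
    have hdeg : m.degree = d := by
      by_contra hne
      exact (mem_support_iff.1 hm) (hph'.coeff_eq_zero hne)
    have h1 : monomial m (coeff m p) = coeff m p • monomial m (1 : K) := by
      rw [smul_monomial, smul_eq_mul, mul_one]
    rw [h1]
    exact Submodule.smul_mem _ _ (Submodule.subset_span ⟨⟨m, hdeg, hpP' m hm⟩, rfl⟩)
  · rw [Submodule.span_le]
    rintro _ ⟨⟨m, hdeg, hm⟩, rfl⟩
    refine ⟨?_, ?_⟩
    · show monomial m (1 : K) ∈ PowIdeal K n c a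
      rw [mem_powIdeal]
      intro m' hm'
      have := support_monomial_subset hm'
      rw [Finset.mem_singleton] at this
      rw [this]
      exact hm
    · show (monomial m (1 : K)).IsHomogeneous d
      exact isHomogeneous_monomial 1 hdeg

/-- `X i ^ a = monomial (single i a) 1`, so `PowIdeal` is the span of a set of monomials and
`MvPolynomial.mem_ideal_span_monomial_image` says: `p ∈ P` iff every `m ∈ p.support` has
`single i a ≤ m` for some `i < c`, i.e. `a ≤ m i`.  Hence `part P d` is the `K`-span of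
`(fun m => monomial m 1) '' A` with `A` the set on the right (finite by `finite_degree`);
monomials are linearly independent (`MvPolynomial.basisMonomials`), so `finrank_span_set_eq_card`
or `finrank_span_eq_card` applies.  (Alternative: `part P d = Finsupp.supported K K A`,
`Finsupp.supportedEquivFinsupp`, `Module.finrank_finsupp_self`.) -/
theorem finrank_part_PowIdeal (n c a d : ℕ) :
    finrank K (part (PowIdeal K n c a) d)
      = {m : Fin n →₀ ℕ | m.degree = d ∧ ∃ i : Fin n, i.val < c ∧ a ≤ m i}.ncard := by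
  have hfin : {m : Fin n →₀ ℕ | m.degree = d ∧ ∃ i : Fin n, i.val < c ∧ a ≤ m i}.Finite :=
    (finite_degree n d).subset fun m hm => hm.1
  have : Fintype {m : Fin n →₀ ℕ | m.degree = d ∧ ∃ i : Fin n, i.val < c ∧ a ≤ m i} :=
    hfin.fintype
  have hli : LinearIndependent K
      (fun m : {m : Fin n →₀ ℕ | m.degree = d ∧ ∃ i : Fin n, i.val < c ∧ a ≤ m i} =>
        monomial (m : Fin n →₀ ℕ) (1 : K)) := by
    have h1 := (basisMonomials (Fin n) K).linearIndependent.comp
      (Subtype.val : {m : Fin n →₀ ℕ | m.degree = d ∧ ∃ i : Fin n, i.val < c ∧ a ≤ m i} → _)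
      Subtype.val_injective
    have h2 : (⇑(basisMonomials (Fin n) K) ∘
        (Subtype.val : {m : Fin n →₀ ℕ | m.degree = d ∧ ∃ i : Fin n, i.val < c ∧ a ≤ m i} → _))
        = fun m : {m : Fin n →₀ ℕ | m.degree = d ∧ ∃ i : Fin n, i.val < c ∧ a ≤ m i} =>
          monomial (m : Fin n →₀ ℕ) (1 : K) := by
      funext m
      simp
    rwa [h2] at h1
  rw [part_eq_span, finrank_span_eq_card hli, ← Nat.card_eq_fintype_card, Nat.card_coe_set_eq]

end Vale.Agent.Lib.P200
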