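import Vale.Agent.Lib.P200.LPPDefs
import Vale.Agent.Lib.P200.LPP0

/-!
# P200: the number of monomials of degree `a` and `a + 1` in `P`
-/

namespace Vale.Agent.Lib.P200

private theorem split_single {n : ℕ} (m : Fin n →₀ ℕ) (i : Fin n) (a : ℕ) (h : a ≤ m i) :
    m = Finsupp.single i a + (m - Finsupp.single i a) :=
  (add_tsub_cancel_of_le (Finsupp.single_le_iff.2 h)).symm

private theorem eq_single_of_degree {n : ℕ} (m : Fin n →₀ ℕ) (i : Fin n) (a : ℕ) (h : a ≤ m i)
    (hd : m.degree = a) : m = Finsupp.single i a := by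
  have h1 := split_single m i a h
  have h2 : m.degree = a + (m - Finsupp.single i a).degree := by
    conv_lhs => rw [h1]
    rw [map_add, Finsupp.degree_single]
  have h3 : (m - Finsupp.single i a).degree = 0 := by omega
  have h4 : m - Finsupp.single i a = 0 := (Finsupp.degree_eq_zero_iff _).1 h3
  rw [h4, add_zero] at h1
  exact h1

private theorem exists_single_of_degree_one {n : ℕ} (m : Fin n →₀ ℕ) (hd : m.degree = 1) :
    ∃ j : Fin n, m = Finsupp.single j 1 := by
  have hne : m ≠ 0 := by
    intro h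
    rw [h, map_zero] at hd
    exact absurd hd (by norm_num)
  obtain ⟨j, hj⟩ := Finsupp.ne_iff.1 hne
  refine ⟨j, eq_single_of_degree m j 1 ?_ hd⟩
  have : m j ≠ 0 := by simpa using hj
  omega

/-- the set is the image of `{i | i.val < c}` under the injective map `i ↦ single i a` -/
theorem ncard_inP (n c a : ℕ) (hc : c ≤ n) (ha : 1 ≤ a) :
    {m : Fin n →₀ ℕ | m.degree = a ∧ ∃ i : Fin n, i.val < c ∧ a ≤ m i}.ncard = c := by
  have hset : {m : Fin n →₀ ℕ | m.degree = a ∧ ∃ i : Fin n, i.val < c ∧ a ≤ m i}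
      = (fun i : Fin c => Finsupp.single (Fin.castLE hc i) a) '' Set.univ := by
    ext m
    simp only [Set.mem_setOf_eq, Set.image_univ, Set.mem_range]
    constructor
    · rintro ⟨hd, i, hi, hai⟩
      refine ⟨⟨i.val, hi⟩, ?_⟩
      rw [eq_single_of_degree m i a hai hd]
      rfl
    · rintro ⟨i, rfl⟩
      refine ⟨Finsupp.degree_single _ _, Fin.castLE hc i, i.isLt, ?_⟩
      simp
  have hinj : Function.Injective (fun i : Fin c => Finsupp.single (Fin.castLE hc i) a) := by
    intro i j hij
    have h1 := Finsupp.single_left_injective (by omega : a ≠ 0) hij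
    exact Fin.castLE_injective hc h1
  rw [hset, Set.ncard_image_of_injective _ hinj, Set.ncard_univ, Nat.card_eq_fintype_card,
    Fintype.card_fin]

/-- the set is contained in the image of `{i | i.val < c} × univ` under
`(i, j) ↦ single i a + single j 1` -/
theorem ncard_inP_succ (n c a : ℕ) (hc : c ≤ n) :
    {m : Fin n →₀ ℕ | m.degree = a + 1 ∧ ∃ i : Fin n, i.val < c ∧ a ≤ m i}.ncard ≤ n * c := by
  have hsub : {m : Fin n →₀ ℕ | m.degree = a + 1 ∧ ∃ i : Fin n, i.val < c ∧ a ≤ m i}
      ⊆ (fun p : Fin n × Fin c =>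
          Finsupp.single (Fin.castLE hc p.2) a + Finsupp.single p.1 1) '' Set.univ := by
    rintro m ⟨hd, i, hi, hai⟩
    have h1 := split_single m i a hai
    have h2 : m.degree = a + (m - Finsupp.single i a).degree := by
      conv_lhs => rw [h1]
      rw [map_add, Finsupp.degree_single]
    have h3 : (m - Finsupp.single i a).degree = 1 := by omega
    obtain ⟨j, hj⟩ := exists_single_of_degree_one _ h3
    refine ⟨(j, ⟨i.val, hi⟩), Set.mem_univ _, ?_⟩
    rw [hj] at h1
    rw [h1]
    rfl
  calc {m : Fin n →₀ ℕ | m.degree = a + 1 ∧ ∃ i : Fin n, i.val < c ∧ a ≤ m i}.ncard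
      ≤ ((fun p : Fin n × Fin c =>
          Finsupp.single (Fin.castLE hc p.2) a + Finsupp.single p.1 1) '' Set.univ).ncard :=
        Set.ncard_le_ncard hsub (Set.toFinite _)
    _ ≤ (Set.univ : Set (Fin n × Fin c)).ncard := Set.ncard_image_le (Set.toFinite _)
    _ = n * c := by
        rw [Set.ncard_univ, Nat.card_eq_fintype_card, Fintype.card_prod, Fintype.card_fin,
          Fintype.card_fin]

end Vale.Agent.Lib.P200
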