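import Vale.Agent.Lib.P200.GLPPDefs
import Vale.Agent.Lib.P200.LPP0
import Vale.Agent.Lib.P200.LPP2

/-!
# P200: the number of monomials of degree `a` and `a + 1` in `P` (general exponents)
-/

namespace Vale.Agent.Lib.P200

private theorem eq_single_of_degree2 {n : ℕ} (m : Fin n →₀ ℕ) (i : Fin n) (a : ℕ) (h : a ≤ m i)
    (hd : m.degree = a) : m = Finsupp.single i a := by
  have h1 : m = Finsupp.single i a + (m - Finsupp.single i a) :=
    (add_tsub_cancel_of_le (Finsupp.single_le_iff.2 h)).symm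
  have h2 : m.degree = a + (m - Finsupp.single i a).degree := by
    conv_lhs => rw [h1]
    rw [map_add, Finsupp.degree_single]
  have h3 : (m - Finsupp.single i a).degree = 0 := by omega
  have h4 : m - Finsupp.single i a = 0 := (Finsupp.degree_eq_zero_iff _).1 h3
  rw [h4, add_zero] at h1
  exact h1

/-- the set equals `{m | m.degree = a ∧ ∃ i, i.val < c1 ∧ a ≤ m i}` (if `b i ≤ m i ≤ a` then
`b i = a`, so `i.val < c1`; use `Finsupp.le_degree` or `Finsupp.degree_eq_sum`); then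
`ncard_inP n c1 a` -/
theorem ncard_inP2 (n c1 e c a : ℕ) (b : Fin n → ℕ) (h1 : ∀ i : Fin n, i.val < c1 → b i = a)
    (h2 : ∀ i : Fin n, c1 ≤ i.val → i.val < c1 + e → b i = a + 1)
    (h3 : ∀ i : Fin n, c1 + e ≤ i.val → a + 2 ≤ b i) (hc : c1 + e ≤ c) (hcn : c ≤ n)
    (ha : 1 ≤ a) :
    {m : Fin n →₀ ℕ | m.degree = a ∧ ∃ i : Fin n, i.val < c ∧ b i ≤ m i}.ncard = c1 := by
  have hset : {m : Fin n →₀ ℕ | m.degree = a ∧ ∃ i : Fin n, i.val < c ∧ b i ≤ m i}
      = {m : Fin n →₀ ℕ | m.degree = a ∧ ∃ i : Fin n, i.val < c1 ∧ a ≤ m i} := by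
    ext m
    simp only [Set.mem_setOf_eq]
    constructor
    · rintro ⟨hd, i, hi, hbi⟩
      have hle : m i ≤ m.degree := Finsupp.le_degree i m
      rcases Nat.lt_or_ge i.val c1 with hi1 | hi1
      · exact ⟨hd, i, hi1, by rw [← h1 i hi1]; exact hbi⟩
      · exfalso
        rcases Nat.lt_or_ge i.val (c1 + e) with hi2 | hi2
        · have := h2 i hi1 hi2
          omega
        · have := h3 i hi2
          omega
    · rintro ⟨hd, i, hi, hai⟩
      exact ⟨hd, i, by omega, by rw [h1 i hi]; exact hai⟩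
  rw [hset]
  exact ncard_inP n c1 a (by omega) ha

/-- the set is contained in the union of `{m | m.degree = a + 1 ∧ ∃ i, i.val < c1 ∧ a ≤ m i}`
(`ncard_inP_succ n c1 a`) and the image of `{i | c1 ≤ i.val ∧ i.val < c1 + e}` (at most `e`
elements) under `i ↦ single i (a + 1)`; `Set.ncard_union_le`, `Set.ncard_le_ncard`,
`finite_degree` -/
theorem ncard_inP_succ2 (n c1 e c a : ℕ) (b : Fin n → ℕ) (h1 : ∀ i : Fin n, i.val < c1 → b i = a)
    (h2 : ∀ i : Fin n, c1 ≤ i.val → i.val < c1 + e → b i = a + 1)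
    (h3 : ∀ i : Fin n, c1 + e ≤ i.val → a + 2 ≤ b i) (hc : c1 + e ≤ c) (hcn : c ≤ n) :
    {m : Fin n →₀ ℕ | m.degree = a + 1 ∧ ∃ i : Fin n, i.val < c ∧ b i ≤ m i}.ncard
      ≤ n * c1 + e := by
  have hidx : ∀ t : Fin e, c1 + t.val < n := fun t => by
    have := t.isLt
    omega
  set S1 : Set (Fin n →₀ ℕ) :=
    {m : Fin n →₀ ℕ | m.degree = a + 1 ∧ ∃ i : Fin n, i.val < c1 ∧ a ≤ m i} with hS1
  set S2 : Set (Fin n →₀ ℕ) :=
    (fun t : Fin e => Finsupp.single (⟨c1 + t.val, hidx t⟩ : Fin n) (a + 1)) '' Set.univ with hS2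
  have hsub : {m : Fin n →₀ ℕ | m.degree = a + 1 ∧ ∃ i : Fin n, i.val < c ∧ b i ≤ m i}
      ⊆ S1 ∪ S2 := by
    rintro m ⟨hd, i, hi, hbi⟩
    have hle : m i ≤ m.degree := Finsupp.le_degree i m
    rcases Nat.lt_or_ge i.val c1 with hi1 | hi1
    · left
      exact ⟨hd, i, hi1, by rw [← h1 i hi1]; exact hbi⟩
    · rcases Nat.lt_or_ge i.val (c1 + e) with hi2 | hi2
      · right
        have hb := h2 i hi1 hi2
        rw [hb] at hbi
        have hm := eq_single_of_degree2 m i (a + 1) hbi hd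
        refine ⟨⟨i.val - c1, by omega⟩, Set.mem_univ _, ?_⟩
        have hi' : (⟨c1 + (i.val - c1), by omega⟩ : Fin n) = i := by
          apply Fin.ext
          simp only
          omega
        simp only
        rw [hi']
        exact hm.symm
      · exfalso
        have := h3 i hi2
        omega
  have hfin1 : S1.Finite := (finite_degree n (a + 1)).subset (fun m hm => hm.1)
  have hfin2 : S2.Finite := (Set.finite_univ).image _
  have hc1 : S1.ncard ≤ n * c1 := ncard_inP_succ n c1 a (by omega)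
  have hc2 : S2.ncard ≤ e := by
    have h := Set.ncard_image_le (f := fun t : Fin e =>
      Finsupp.single (⟨c1 + t.val, hidx t⟩ : Fin n) (a + 1)) (Set.finite_univ (α := Fin e))
    rw [Set.ncard_univ, Nat.card_eq_fintype_card, Fintype.card_fin] at h
    exact h
  calc _ ≤ (S1 ∪ S2).ncard := Set.ncard_le_ncard hsub (hfin1.union hfin2)
    _ ≤ S1.ncard + S2.ncard := Set.ncard_union_le _ _
    _ ≤ n * c1 + e := by omega

end Vale.Agent.Lib.P200
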