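import Vale.Agent.Lib.P200.LPPDefs
import Vale.Agent.Lib.P200.LPP0

/-!
# P200: the greatest monomials of degree `a` outside `P`
-/

namespace Vale.Agent.Lib.P200

/-- the values of `single 0 (a - 1) + single k 1` for `k ≠ 0` -/
private theorem u_apply (n a : ℕ) (k l : Fin (n + 1)) (hk : k ≠ 0) :
    (Finsupp.single (0 : Fin (n + 1)) (a - 1) + Finsupp.single k 1 : Fin (n + 1) →₀ ℕ) l
      = if l = 0 then a - 1 else if l = k then 1 else 0 := by
  rw [Finsupp.add_apply, Finsupp.single_apply, Finsupp.single_apply]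
  by_cases h0 : l = 0
  · subst h0
    simp [hk]
  · by_cases h1 : l = k
    · subst h1
      simp [h0, Ne.symm h0]
    · simp [h0, h1, Ne.symm h0, Ne.symm h1]

/-- a monomial of degree `a` with `m 0 = a - 1` is `x_1^(a-1) x_i` with `i ≠ 0` -/
private theorem struct_of_top (n a : ℕ) (ha : 2 ≤ a) (m : Fin (n + 1) →₀ ℕ) (hdeg : m.degree = a)
    (h0 : m 0 = a - 1) : ∃ i : Fin (n + 1), i ≠ 0 ∧
      m = Finsupp.single 0 (a - 1) + Finsupp.single i 1 := by
  have hsum : ∑ j : Fin n, m j.succ = 1 := by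
    have h := hdeg
    rw [Finsupp.degree_eq_sum, Fin.sum_univ_succ, h0] at h
    omega
  have hex : ∃ j : Fin n, m j.succ ≠ 0 := by
    by_contra hcon
    have hz : ∑ j : Fin n, m j.succ = 0 := Finset.sum_eq_zero (fun j _ => by
      by_contra hj
      exact hcon ⟨j, hj⟩)
    omega
  obtain ⟨j0, hj0⟩ := hex
  have hsplit : m j0.succ + ∑ j ∈ Finset.univ.erase j0, m j.succ = ∑ j : Fin n, m j.succ :=
    Finset.add_sum_erase Finset.univ (fun j : Fin n => m j.succ) (Finset.mem_univ j0)
  have hrest : ∑ j ∈ Finset.univ.erase j0, m j.succ = 0 := by omega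
  have hj1 : m j0.succ = 1 := by omega
  refine ⟨j0.succ, Fin.succ_ne_zero j0, ?_⟩
  ext l
  rw [u_apply n a j0.succ l (Fin.succ_ne_zero j0)]
  by_cases hl0 : l = 0
  · rw [if_pos hl0, hl0, h0]
  · rw [if_neg hl0]
    obtain ⟨j, rfl⟩ := Fin.exists_succ_eq.2 hl0
    by_cases hjj : j = j0
    · rw [hjj, if_pos rfl, hj1]
    · rw [if_neg (fun h => hjj (Fin.succ_injective _ h))]
      exact (Finset.sum_eq_zero_iff.1 hrest) j (Finset.mem_erase.2 ⟨hjj, Finset.mem_univ j⟩)

/-- Put `u k = single 0 (a - 1) + single k 1`.  Suppose `m` is not `u k` for any `1 ≤ k ≤ q`.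
Then each `u k`, `1 ≤ k ≤ q`, is `Out` (as `2 ≤ a`) and `LexGT (u k) m`: we have `m 0 < a`; if
`m 0 < a - 1` use the index `0`; if `m 0 = a - 1` there is `i ≠ 0` with `m i ≠ 0`, and the degree
forces `m = u i`, so `q < i`, and the index `k` works.  As `k ↦ u k` is injective the set has at
least `q` elements (it is finite by `finite_degree`), a contradiction. -/
theorem top_monomials (n c a q : ℕ) (hc : 1 ≤ c) (ha : 2 ≤ a) (hq : q ≤ n)
    (m : Fin (n + 1) →₀ ℕ) (hm : Out (n + 1) c a a m)
    (hcard : {m' : Fin (n + 1) →₀ ℕ | Out (n + 1) c a a m' ∧ LexGT m' m}.ncard < q) :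
    ∃ k : Fin (n + 1), 1 ≤ k.val ∧ k.val ≤ q ∧
      m = Finsupp.single 0 (a - 1) + Finsupp.single k 1 := by
  by_contra hne
  have hne' : ∀ k : Fin (n + 1), 1 ≤ k.val → k.val ≤ q →
      m ≠ Finsupp.single 0 (a - 1) + Finsupp.single k 1 := by
    intro k h1 h2 h3
    exact hne ⟨k, h1, h2, h3⟩
  obtain ⟨hdeg, hlt⟩ := hm
  have hm0 : m 0 < a := hlt 0 (by
    have h00 : (0 : Fin (n + 1)).val = 0 := rfl
    omega)
  have hkey : ∀ k : Fin (n + 1), 1 ≤ k.val → k.val ≤ q →
      Out (n + 1) c a a (Finsupp.single 0 (a - 1) + Finsupp.single k 1) ∧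
      LexGT (Finsupp.single 0 (a - 1) + Finsupp.single k 1) m := by
    intro k hk1 hk2
    have hk0 : k ≠ 0 := by
      intro h
      rw [h] at hk1
      simp at hk1
    refine ⟨⟨?_, ?_⟩, ?_⟩
    · rw [map_add, Finsupp.degree_single, Finsupp.degree_single]
      omega
    · intro i _
      rw [u_apply n a k i hk0]
      split_ifs <;> omega
    · by_cases h0 : m 0 = a - 1
      · obtain ⟨i, hi0, hmi⟩ := struct_of_top n a ha m hdeg h0
        have hiq : q < i.val := by
          by_contra hcon
          have hi1 : 1 ≤ i.val := by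
            rcases Nat.eq_zero_or_pos i.val with h | h
            · exact absurd (Fin.ext h) hi0
            · exact h
          exact hne' i hi1 (by omega) hmi
        refine ⟨k, ?_, ?_⟩
        · intro l hl
          rw [u_apply n a k l hk0, hmi, u_apply n a i l hi0]
          by_cases hl0 : l = 0
          · rw [if_pos hl0, if_pos hl0]
          · rw [if_neg hl0, if_neg hl0, if_neg (ne_of_lt hl), if_neg]
            intro h
            rw [h] at hl
            have := Fin.lt_def.1 hl
            omega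
        · rw [u_apply n a k k hk0, hmi, u_apply n a i k hi0, if_neg hk0, if_neg hk0, if_pos rfl,
            if_neg]
          · exact Nat.one_pos
          · intro h
            rw [h] at hk2
            omega
      · refine ⟨0, ?_, ?_⟩
        · intro l hl
          exact absurd hl (Fin.not_lt_zero l)
        · rw [u_apply n a k 0 hk0, if_pos rfl]
          omega
  have hb : ∀ j : Fin q, j.val + 1 < n + 1 := fun j => by
    have := j.isLt
    omega
  have hf : Function.Injective (fun j : Fin q =>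
      (Finsupp.single 0 (a - 1) + Finsupp.single (⟨j.val + 1, hb j⟩ : Fin (n + 1)) 1 :
        Fin (n + 1) →₀ ℕ)) := by
    intro j1 j2 h
    have h' := DFunLike.congr_fun h (⟨j1.val + 1, hb j1⟩ : Fin (n + 1))
    have hz : ∀ j : Fin q, (⟨j.val + 1, hb j⟩ : Fin (n + 1)) ≠ 0 := by
      intro j hj
      have := congrArg Fin.val hj
      simp at this
    simp only at h'
    rw [u_apply n a _ _ (hz j1), u_apply n a _ _ (hz j2), if_neg (hz j1), if_pos rfl,
      if_neg (hz j1)] at h'
    by_contra hj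
    rw [if_neg] at h'
    · omega
    · intro hh
      have := congrArg Fin.val hh
      simp only at this
      exact hj (Fin.ext (by omega))
  have hsub : Set.range (fun j : Fin q =>
      (Finsupp.single 0 (a - 1) + Finsupp.single (⟨j.val + 1, hb j⟩ : Fin (n + 1)) 1 :
        Fin (n + 1) →₀ ℕ)) ⊆
      {m' : Fin (n + 1) →₀ ℕ | Out (n + 1) c a a m' ∧ LexGT m' m} := by
    rintro _ ⟨j, rfl⟩
    exact hkey _ (Nat.le_add_left 1 j.val) j.isLt
  have hfin : {m' : Fin (n + 1) →₀ ℕ | Out (n + 1) c a a m' ∧ LexGT m' m}.Finite :=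
    (finite_degree (n + 1) a).subset (fun m' h => h.1.1)
  have hle := Set.ncard_le_ncard hsub hfin
  rw [← Set.image_univ, Set.ncard_image_of_injective _ hf, Set.ncard_univ,
    Nat.card_eq_fintype_card, Fintype.card_fin] at hle
  omega

end Vale.Agent.Lib.P200
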