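import Mathlib

/-!
# P200: a count of pairs
-/

namespace Vale.Agent.Lib.P200

/-- `∑_{k = 1}^{q} (n + 1 - k) + q (q + 1) / 2 = (n + 1) q`; e.g. induction on `q` -/
theorem card_pairs (n q : ℕ) (hq : q ≤ n) :
    (Finset.univ.filter (fun p : Fin (n + 1) × Fin (n + 1) =>
      1 ≤ p.1.val ∧ p.1.val ≤ q ∧ p.1 ≤ p.2)).card + (q + 1).choose 2 = (n + 1) * q := by
  induction q with
  | zero =>
    have h0 : (Finset.univ.filter (fun p : Fin (n + 1) × Fin (n + 1) =>
        1 ≤ p.1.val ∧ p.1.val ≤ 0 ∧ p.1 ≤ p.2)) = ∅ := by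
      rw [Finset.filter_eq_empty_iff]
      intro p _ h
      omega
    rw [h0]
    simp
  | succ q ih =>
    have ih' := ih (by omega)
    set i0 : Fin (n + 1) := ⟨q + 1, by omega⟩ with hi0
    have hval : (i0 : ℕ) = q + 1 := rfl
    have hsplit : Finset.univ.filter (fun p : Fin (n + 1) × Fin (n + 1) =>
          1 ≤ p.1.val ∧ p.1.val ≤ q + 1 ∧ p.1 ≤ p.2)
        = Finset.univ.filter (fun p : Fin (n + 1) × Fin (n + 1) =>
          1 ≤ p.1.val ∧ p.1.val ≤ q ∧ p.1 ≤ p.2) ∪ ({i0} ×ˢ Finset.Ici i0) := by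
      ext ⟨a, b⟩
      simp only [Finset.mem_filter, Finset.mem_univ, true_and, Finset.mem_union,
        Finset.mem_product, Finset.mem_singleton, Finset.mem_Ici]
      constructor
      · rintro ⟨h1, h2, h3⟩
        by_cases h : a.val ≤ q
        · left
          exact ⟨h1, h, h3⟩
        · right
          have ha : a = i0 := Fin.ext (by rw [hval]; omega)
          exact ⟨ha, ha ▸ h3⟩
      · rintro (⟨h1, h2, h3⟩ | ⟨h1, h3⟩)
        · exact ⟨h1, by omega, h3⟩
        · rw [h1]
          exact ⟨by rw [hval]; omega, by rw [hval], h3⟩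
    have hdisj : Disjoint (Finset.univ.filter (fun p : Fin (n + 1) × Fin (n + 1) =>
          1 ≤ p.1.val ∧ p.1.val ≤ q ∧ p.1 ≤ p.2)) ({i0} ×ˢ Finset.Ici i0) := by
      rw [Finset.disjoint_left]
      rintro ⟨a, b⟩ h1 h2
      simp only [Finset.mem_filter, Finset.mem_univ, true_and, Finset.mem_product,
        Finset.mem_singleton, Finset.mem_Ici] at h1 h2
      have ha : a.val = q + 1 := by rw [h2.1]
      omega
    rw [hsplit, Finset.card_union_of_disjoint hdisj, Finset.card_product, Finset.card_singleton,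
      Fin.card_Ici, hval]
    have hch : (q + 1 + 1).choose 2 = (q + 1).choose 2 + (q + 1) := by
      have h1 := Nat.choose_succ_succ' (q + 1) 1
      rw [Nat.choose_one_right] at h1
      have h2 : (q + 1).choose (1 + 1) = (q + 1).choose 2 := rfl
      have h3 : (q + 1 + 1).choose (1 + 1) = (q + 1 + 1).choose 2 := rfl
      omega
    rw [hch, Nat.mul_succ]
    omega

end Vale.Agent.Lib.P200
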