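import Mathlib

/-!
# P200: exponent vectors of degree `a + 1` with first entry `a - 1`
-/

namespace Vale.Agent.Lib.P200

/-- peel off one unit at a point of the support -/
private lemma peel {σ : Type*} [DecidableEq σ] (r : σ →₀ ℕ) (k : σ) (hk : k ∈ r.support) :
    r = Finsupp.single k 1 + (r - Finsupp.single k 1) := by
  have hle : Finsupp.single k 1 ≤ r := by
    rw [Finsupp.single_le_iff]
    exact Nat.one_le_iff_ne_zero.2 (Finsupp.mem_support_iff.1 hk)
  exact (add_tsub_cancel_of_le hle).symm

/-- a vector of degree `1` is a unit vector -/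
private lemma eq_single_of_degree_one {σ : Type*} [DecidableEq σ] (r : σ →₀ ℕ)
    (h : r.degree = 1) : ∃ j, r = Finsupp.single j 1 := by
  have hne : r ≠ 0 := by
    intro h0; rw [h0] at h; simp at h
  obtain ⟨j, hj⟩ := Finsupp.support_nonempty_iff.2 hne
  refine ⟨j, ?_⟩
  have h1 := peel r j hj
  have h2 : (r - Finsupp.single j 1).degree = 0 := by
    have := congrArg Finsupp.degree h1
    rw [map_add, Finsupp.degree_single, h] at this
    omega
  rw [Finsupp.degree_eq_zero_iff] at h2
  rw [h2, add_zero] at h1
  exact h1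

/-- `m - single 0 (a - 1)` has degree `2` and vanishes at `0`; let `k` be the least index of its
support, subtract `single k 1`; what is left has degree `1`, so it is `single j 1`, `k ≤ j` -/
theorem decomp (n a : ℕ) (ha : 1 ≤ a) (m : Fin (n + 1) →₀ ℕ) (hdeg : m.degree = a + 1)
    (h0 : m 0 = a - 1) :
    ∃ k j : Fin (n + 1), 1 ≤ k.val ∧ k ≤ j ∧
      m = Finsupp.single 0 (a - 1) + Finsupp.single k 1 + Finsupp.single j 1 := by
  set r : Fin (n + 1) →₀ ℕ := m.erase 0 with hr
  have hm : m = Finsupp.single 0 (a - 1) + r := by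
    rw [← h0, hr]; exact (Finsupp.single_add_erase 0 m).symm
  have hrdeg : r.degree = 2 := by
    have := congrArg Finsupp.degree hm
    rw [map_add, Finsupp.degree_single, hdeg] at this
    omega
  have hr0 : r 0 = 0 := by rw [hr]; exact Finsupp.erase_same
  have hne : r ≠ 0 := by
    intro h; rw [h] at hrdeg; simp at hrdeg
  have hsupp : r.support.Nonempty := Finsupp.support_nonempty_iff.2 hne
  set k := r.support.min' hsupp with hk
  have hkmem : k ∈ r.support := Finset.min'_mem _ _
  have h1 := peel r k hkmem
  have h2 : (r - Finsupp.single k 1).degree = 1 := by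
    have := congrArg Finsupp.degree h1
    rw [map_add, Finsupp.degree_single, hrdeg] at this
    omega
  obtain ⟨j, hj⟩ := eq_single_of_degree_one _ h2
  rw [hj] at h1
  refine ⟨k, j, ?_, ?_, ?_⟩
  · have hk0 : k ≠ 0 := by
      intro h
      rw [h] at hkmem
      exact (Finsupp.mem_support_iff.1 hkmem) hr0
    exact Nat.one_le_iff_ne_zero.2 (fun h => hk0 (Fin.ext h))
  · apply Finset.min'_le
    rw [Finsupp.mem_support_iff, h1]
    simp
  · rw [hm, add_assoc, ← h1]

end Vale.Agent.Lib.P200
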