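import Vale.Agent.Lib.P200.GLPPDefs
import Vale.Agent.Lib.P200.LPP0
import Vale.Agent.Lib.P200.LPP5
import Vale.Agent.Lib.P200.LPP6

/-!
# P200: the number of monomials of degree `a + 1` outside `P` above `x_1^(a-1) x_k x_j`
(general exponents)
-/

namespace Vale.Agent.Lib.P200

theorem above_count2 (n c a q : ℕ) (b : Fin (n + 1) → ℕ) (hc : 1 ≤ c) (ha : 1 ≤ a) (hq : q ≤ n)
    (hb0 : b 0 = a) (k j : Fin (n + 1)) (hk : 1 ≤ k.val) (hkq : k.val ≤ q) (hj : 1 ≤ j.val) :
    {m' : Fin (n + 1) →₀ ℕ | Out2 (n + 1) c b (a + 1) m' ∧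
      LexGT m' (Finsupp.single 0 (a - 1) + Finsupp.single k 1 + Finsupp.single j 1)}.ncard
      + 1 + (q + 1).choose 2 ≤ (n + 1) * q := by
  classical
  have hk0 : k ≠ 0 := by
    intro h
    rw [h] at hk
    simp at hk
  have hj0 : j ≠ 0 := by
    intro h
    rw [h] at hj
    simp at hj
  have hm00 : (Finsupp.single 0 (a - 1) + Finsupp.single k 1 + Finsupp.single j 1 :
      Fin (n + 1) →₀ ℕ) 0 = a - 1 := by
    simp [hk0, hj0]
  have hm0R : (Finsupp.single 0 (a - 1) + Finsupp.single k 1 + Finsupp.single j 1 :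
      Fin (n + 1) →₀ ℕ) ∈ (Finset.univ.filter (fun p : Fin (n + 1) × Fin (n + 1) =>
      1 ≤ p.1.val ∧ p.1.val ≤ q ∧ p.1 ≤ p.2)).image
      (fun p => Finsupp.single 0 (a - 1) + Finsupp.single p.1 1 + Finsupp.single p.2 1) := by
    rw [Finset.mem_image]
    rcases le_total k j with h | h
    · exact ⟨(k, j), by simp [hk, hkq, h], rfl⟩
    · refine ⟨(j, k), ?_, ?_⟩
      · have h' : j.val ≤ k.val := h
        simp only [Finset.mem_filter, Finset.mem_univ, true_and]
        exact ⟨hj, by omega, h⟩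
      · simp only
        rw [add_assoc, add_assoc, add_comm (Finsupp.single j 1)]
  have hsub : {m' : Fin (n + 1) →₀ ℕ | Out2 (n + 1) c b (a + 1) m' ∧
      LexGT m' (Finsupp.single 0 (a - 1) + Finsupp.single k 1 + Finsupp.single j 1)} ⊆
      ((((Finset.univ.filter (fun p : Fin (n + 1) × Fin (n + 1) =>
      1 ≤ p.1.val ∧ p.1.val ≤ q ∧ p.1 ≤ p.2)).image
      (fun p => Finsupp.single 0 (a - 1) + Finsupp.single p.1 1 + Finsupp.single p.2 1)).erase
      (Finsupp.single 0 (a - 1) + Finsupp.single k 1 + Finsupp.single j 1) :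
      Finset (Fin (n + 1) →₀ ℕ)) : Set (Fin (n + 1) →₀ ℕ)) := by
    rintro m' ⟨hout, i, hlt, hi⟩
    have hi0 : i ≠ 0 := by
      rintro rfl
      have h1 := hout.2 0 (by rw [Fin.val_zero]; omega)
      rw [hb0] at h1
      rw [hm00] at hi
      omega
    have h0 : m' 0 = a - 1 := by
      rw [hlt 0 (Fin.pos_of_ne_zero hi0), hm00]
    obtain ⟨k', j', hk', hkj', rfl⟩ := decomp n a ha m' hout.1 h0
    rw [Finset.mem_coe, Finset.mem_erase]
    refine ⟨?_, ?_⟩
    · intro h
      rw [h] at hi
      exact lt_irrefl _ hi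
    · rw [Finset.mem_image]
      refine ⟨(k', j'), ?_, rfl⟩
      simp only [Finset.mem_filter, Finset.mem_univ, true_and]
      refine ⟨hk', ?_, hkj'⟩
      by_contra hcon
      have hqk : q < k'.val := by omega
      have hkj'' : k'.val ≤ j'.val := hkj'
      rcases lt_or_ge k i with hki | hik
      · have h2 := hlt k hki
        have hkk' : k' ≠ k := by
          intro h
          rw [h] at hqk
          omega
        have hkj3 : j' ≠ k := by
          intro h
          rw [h] at hkj''
          omega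
        simp [Finsupp.single_apply, hkk', hkj3, Ne.symm hk0] at h2
        omega
      · have hik' : i.val ≤ k.val := hik
        have h3 : k' ≠ i := by
          intro h
          rw [h] at hqk
          omega
        have h4 : j' ≠ i := by
          intro h
          rw [h] at hkj''
          omega
        simp [Finsupp.single_apply, h3, h4, Ne.symm hi0] at hi
  have h5 := Set.ncard_le_ncard hsub (Finset.finite_toSet _)
  rw [Set.ncard_coe_finset, Finset.card_erase_of_mem hm0R] at h5
  have h6 := Finset.card_image_le (s := Finset.univ.filter (fun p : Fin (n + 1) × Fin (n + 1) =>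
      1 ≤ p.1.val ∧ p.1.val ≤ q ∧ p.1 ≤ p.2))
      (f := fun p => (Finsupp.single 0 (a - 1) + Finsupp.single p.1 1 + Finsupp.single p.2 1 :
        Fin (n + 1) →₀ ℕ))
  have h7 := card_pairs n q hq
  have h8 := Finset.card_pos.mpr ⟨_, hm0R⟩
  omega

end Vale.Agent.Lib.P200
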