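import Vale.Agent.Lib.P200.LPPDefs

/-!
# P200: the graded pieces `J_d` of the lex-plus-powers space, for a general degree sequence

`P = (x_1^(b_1), ..., x_c^(b_c))` in `K[x_1, ..., x_n]`; the exponents are given by a function
`b : Fin n → ℕ` of which only the first `c` values are used.
-/

namespace Vale.Agent.Lib.P200

open Module MvPolynomial

/-- the ideal `P = (x_1^(b_1), ..., x_c^(b_c))` -/
noncomputable def PowIdeal2 (K : Type) [Field K] (n c : ℕ) (b : Fin n → ℕ) :
    Ideal (MvPolynomial (Fin n) K) :=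
  Ideal.span {p | ∃ i : Fin n, i.val < c ∧ p = X i ^ b i}

/-- `m` is the exponent vector of a monomial of degree `d` outside `P` -/
def Out2 (n c : ℕ) (b : Fin n → ℕ) (d : ℕ) (m : Fin n →₀ ℕ) : Prop :=
  m.degree = d ∧ ∀ i : Fin n, i.val < c → m i < b i

/-- `q_d = dim I_d - dim P_d` -/
noncomputable def qd2 {K : Type} [Field K] {n : ℕ} (I : Ideal (MvPolynomial (Fin n) K))
    (c : ℕ) (b : Fin n → ℕ) (d : ℕ) : ℕ :=
  finrank K (part I d) - finrank K (part (PowIdeal2 K n c b) d)

/-- `J_d`: the span of `P_d` and of the `q_d` lexicographically greatest monomials of degree `d`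
outside `P` (a monomial is among the `q` greatest iff fewer than `q` of them are greater) -/
noncomputable def Jd2 {K : Type} [Field K] {n : ℕ} (I : Ideal (MvPolynomial (Fin n) K))
    (c : ℕ) (b : Fin n → ℕ) (d : ℕ) : Submodule K (MvPolynomial (Fin n) K) :=
  part (PowIdeal2 K n c b) d ⊔
    Submodule.span K {p | ∃ m : Fin n →₀ ℕ, Out2 n c b d m ∧
      {m' : Fin n →₀ ℕ | Out2 n c b d m' ∧ LexGT m' m}.ncard < qd2 I c b d ∧ p = monomial m 1}

end Vale.Agent.Lib.P200
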