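import Vale.Agent.Lib.P200.Defs

/-!
# P200: a regular sequence of forms of degree `a` has no syzygies of degree `< a`
-/

namespace Vale.Agent.Lib.P200

open Module MvPolynomial

variable {K : Type} [Field K] {n : ℕ}

/-- an ideal generated by forms of degree `a` contains no nonzero form of degree `e < a`.
Proof: `h = ∑ p_k * s_k` with `s_k ∈ T` (`Submodule.span_induction` or
`Ideal.mem_span_iff_exists_fun` / `Finsupp.mem_ideal_span..`); every monomial of `p * s` has degree
`≥ a` (`coeff_mul`, `IsHomogeneous.coeff_eq_zero`), every monomial of `h` has degree `e`.  For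
instance show by `Submodule.span_induction` that all `m` with `coeff m h' ≠ 0` have
`a ≤ m.degree` for all `h'` in the ideal. -/
theorem eq_zero_of_mem_span {a e : ℕ} (T : Set (Pol K n)) (hT : ∀ s ∈ T, s.IsHomogeneous a)
    (he : e < a) (h : Pol K n) (hh : h.IsHomogeneous e) (hmem : h ∈ Ideal.span T) : h = 0 := by
  classical
  have key : ∀ m : Fin n →₀ ℕ, m.degree < a → coeff m h = 0 := by
    refine Submodule.span_induction
      (p := fun (x : Pol K n) _ => ∀ m : Fin n →₀ ℕ, m.degree < a → coeff m x = 0)
      ?_ ?_ ?_ ?_ hmem
    · intro s hs m hm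
      exact (hT s hs).coeff_eq_zero (ne_of_lt hm)
    · intro m _
      exact coeff_zero m
    · intro x y _ _ hx hy m hm
      rw [coeff_add, hx m hm, hy m hm, add_zero]
    · intro p x _ hx m hm
      rw [smul_eq_mul, coeff_mul]
      apply Finset.sum_eq_zero
      intro uv huv
      rw [Finset.HasAntidiagonal.mem_antidiagonal] at huv
      have hdeg : uv.2.degree ≤ m.degree := by
        rw [← huv, map_add]
        exact Nat.le_add_left _ _
      rw [hx uv.2 (lt_of_le_of_lt hdeg hm), mul_zero]
  ext m
  rw [coeff_zero]
  by_cases hm : m.degree = e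
  · exact key m (by omega)
  · exact hh.coeff_eq_zero hm

/-- Induction on the largest index with `E i ≠ 0`: if `E i = 0` for all `i > k` then
`E k * f k = - ∑_{i < k} E i * f i ∈ Ideal.span (f '' {j | j < k})`, so `E k` is in that ideal by
regularity, so `E k = 0` by `eq_zero_of_mem_span`. -/
theorem no_low_syzygy {c a e : ℕ} (f : Fin c → Pol K n) (hf : ∀ i, (f i).IsHomogeneous a)
    (hreg : IsRegSeq f) (he : e < a) (E : Fin c → Pol K n) (hE : ∀ i, (E i).IsHomogeneous e)
    (h : ∑ i, E i * f i = 0) : ∀ i, E i = 0 := by
  classical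
  have main : ∀ d : ℕ, ∀ i : Fin c, c ≤ i.val + d → E i = 0 := by
    intro d
    induction d with
    | zero =>
      intro i hi
      exact absurd i.isLt (by omega)
    | succ d ih =>
      intro i0 hi0
      have hgt : ∀ j : Fin c, i0 < j → E j = 0 := by
        intro j hj
        apply ih j
        have : i0.val < j.val := hj
        omega
      have hsplit := Finset.sum_filter_add_sum_filter_not Finset.univ (fun i : Fin c => i < i0)
        (fun i => E i * f i)
      rw [h] at hsplit
      have hsecond : ∑ i ∈ Finset.univ.filter (fun i : Fin c => ¬ i < i0), E i * f i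
          = E i0 * f i0 := by
        apply Finset.sum_eq_single i0
        · intro j hj hne
          rw [Finset.mem_filter] at hj
          have hlt : i0 < j := lt_of_le_of_ne (not_lt.mp hj.2) (Ne.symm hne)
          rw [hgt j hlt, zero_mul]
        · intro hnot
          exact (hnot (by simp)).elim
      rw [hsecond] at hsplit
      have heq : E i0 * f i0 = - ∑ i ∈ Finset.univ.filter (fun i : Fin c => i < i0), E i * f i :=
        eq_neg_of_add_eq_zero_right hsplit
      have hmem : E i0 * f i0 ∈ Ideal.span (f '' {j | j < i0}) := by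
        rw [heq]
        apply Submodule.neg_mem
        apply Submodule.sum_mem
        intro i hi
        rw [Finset.mem_filter] at hi
        exact Ideal.mul_mem_left _ _ (Ideal.subset_span ⟨i, hi.2, rfl⟩)
      have hmem2 := hreg i0 (E i0) hmem
      refine eq_zero_of_mem_span (f '' {j | j < i0}) ?_ he (E i0) (hE i0) hmem2
      rintro s ⟨j, -, rfl⟩
      exact hf j
  intro i
  exact main c i (Nat.le_add_left _ _)

/-- `no_low_syzygy` with `e = 0`, `E i = C (β i)` (`Fintype.linearIndependent_iff`,
`MvPolynomial.smul_eq_C_mul`, `isHomogeneous_C`) -/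
theorem linearIndependent_of_reg {c a : ℕ} (f : Fin c → Pol K n)
    (hf : ∀ i, (f i).IsHomogeneous a) (hreg : IsRegSeq f) (ha : 0 < a) :
    LinearIndependent K f := by
  rw [Fintype.linearIndependent_iff]
  intro g hg i
  have h0 : ∑ i, (C (g i) : Pol K n) * f i = 0 := by
    rw [← hg]
    apply Finset.sum_congr rfl
    intro j _
    rw [MvPolynomial.smul_eq_C_mul]
  have h1 := no_low_syzygy f hf hreg ha (fun i => (C (g i) : Pol K n))
    (fun i => isHomogeneous_C _ _) h0 i
  exact (map_eq_zero_iff _ (C_injective (Fin n) K)).mp h1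

end Vale.Agent.Lib.P200
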