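import Vale.Agent.Lib.P200.GDefs
import Vale.Agent.Lib.P200.Low

/-!
# P200, mixed degrees: a regular sequence of forms of degrees `≥ a` has no syzygies of degree `< a`
-/

namespace Vale.Agent.Lib.P200

open Module MvPolynomial

variable {K : Type} [Field K] {n : ℕ}

/-- ADAPT `eq_zero_of_mem_span` in `Low.lean` (same proof: all monomials of elements of the ideal
have degree `≥ a`) -/
theorem eq_zero_of_mem_span2 {a e : ℕ} (T : Set (Pol K n))
    (hT : ∀ s ∈ T, ∃ d, a ≤ d ∧ s.IsHomogeneous d)
    (he : e < a) (h : Pol K n) (hh : h.IsHomogeneous e) (hmem : h ∈ Ideal.span T) : h = 0 := by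
  classical
  have key : ∀ m : Fin n →₀ ℕ, m.degree < a → coeff m h = 0 := by
    refine Submodule.span_induction
      (p := fun (x : Pol K n) _ => ∀ m : Fin n →₀ ℕ, m.degree < a → coeff m x = 0)
      ?_ ?_ ?_ ?_ hmem
    · intro s hs m hm
      obtain ⟨d, hd, hsd⟩ := hT s hs
      exact hsd.coeff_eq_zero (ne_of_lt (lt_of_lt_of_le hm hd))
    · intro m _
      exact coeff_zero m
    · intro x y _ _ hx hy m hm
      rw [coeff_add, hx m hm, hy m hm, add_zero]
    · intro p x _ hx m hm
      rw [smul_eq_mul, coeff_mul]
      apply Finset.sum_eq_zero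
      intro uv huv
      rw [Finset.HasAntidiagonal.mem_antidiagonal] at huv
      have hdeg : uv.2.degree ≤ m.degree := by
        rw [← huv, map_add]
        exact Nat.le_add_left _ _
      rw [hx uv.2 (lt_of_le_of_lt hdeg hm), mul_zero]
  ext m
  rw [coeff_zero]
  by_cases hm : m.degree = e
  · exact key m (by omega)
  · exact hh.coeff_eq_zero hm

/-- ADAPT `no_low_syzygy` in `Low.lean` (same proof, with `eq_zero_of_mem_span2`) -/
theorem no_low_syzygy2 {C a : ℕ} (f : Fin C → Pol K n) (deg : Fin C → ℕ)
    (hf : ∀ i, (f i).IsHomogeneous (deg i)) (hdeg : ∀ i, a ≤ deg i) (hreg : IsRegSeq f)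
    (E : Fin C → Pol K n) (ε : Fin C → ℕ) (hE : ∀ i, (E i).IsHomogeneous (ε i))
    (hε : ∀ i, ε i < a) (h : ∑ i, E i * f i = 0) : ∀ i, E i = 0 := by
  classical
  have main : ∀ d : ℕ, ∀ i : Fin C, C ≤ i.val + d → E i = 0 := by
    intro d
    induction d with
    | zero =>
      intro i hi
      exact absurd i.isLt (by omega)
    | succ d ih =>
      intro i0 hi0
      have hgt : ∀ j : Fin C, i0 < j → E j = 0 := by
        intro j hj
        apply ih j
        have : i0.val < j.val := hj
        omega
      have hsplit := Finset.sum_filter_add_sum_filter_not Finset.univ (fun i : Fin C => i < i0)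
        (fun i => E i * f i)
      rw [h] at hsplit
      have hsecond : ∑ i ∈ Finset.univ.filter (fun i : Fin C => ¬ i < i0), E i * f i
          = E i0 * f i0 := by
        apply Finset.sum_eq_single i0
        · intro j hj hne
          rw [Finset.mem_filter] at hj
          have hlt : i0 < j := lt_of_le_of_ne (not_lt.mp hj.2) (Ne.symm hne)
          rw [hgt j hlt, zero_mul]
        · intro hnot
          exact (hnot (by simp)).elim
      rw [hsecond] at hsplit
      have heq : E i0 * f i0 = - ∑ i ∈ Finset.univ.filter (fun i : Fin C => i < i0), E i * f i :=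
        eq_neg_of_add_eq_zero_right hsplit
      have hmem : E i0 * f i0 ∈ Ideal.span (f '' {j | j < i0}) := by
        rw [heq]
        apply Submodule.neg_mem
        apply Submodule.sum_mem
        intro i hi
        rw [Finset.mem_filter] at hi
        exact Ideal.mul_mem_left _ _ (Ideal.subset_span ⟨i, hi.2, rfl⟩)
      have hmem2 := hreg i0 (E i0) hmem
      refine eq_zero_of_mem_span2 (f '' {j | j < i0}) ?_ (hε i0) (E i0) (hE i0) hmem2
      rintro s ⟨j, -, rfl⟩
      exact ⟨deg j, hdeg j, hf j⟩
  intro i
  exact main C i (Nat.le_add_left _ _)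

end Vale.Agent.Lib.P200
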