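import Vale.Agent.Lib.P200.Defs

/-!
# P200: the evaluation of the linear syzygies on `V` at a point is never onto `V`
-/

namespace Vale.Agent.Lib.P200

open Module MvPolynomial

variable {K : Type} [Field K] {n : ℕ}

/-- Suppose `(Syz V).map (ev x) = V`.  Let `b : Basis (Fin p) K V` (`Module.finBasis`), `p ≥ 1`.
Choose `u k ∈ Syz V` with `ev x (u k) = b k`.  Put
`r k s = ∑ j, C (b.repr ⟨u k j, _⟩ s) * X j` (a `p × p` matrix of linear forms).  Then
`∑ s, r k s * b s = ∑ j, X j * u k j = 0`, i.e. `r *ᵥ b = 0` with `b ≠ 0`, so `det r = 0`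
(`Matrix.exists_mulVec_eq_zero_iff`).  But `eval x (r k s) = b.repr (ev x (u k)) s = δ_ks`, so
`eval x (det r) = det 1 = 1` (`RingHom.map_det`, `Matrix.det_one`). -/
theorem map_ev_ne (V : Submodule K (Pol K n)) [FiniteDimensional K V] (hV : V ≠ ⊥)
    (x : Fin n → K) : (Syz V).map (ev x) ≠ V := by
  classical
  intro h
  set p := finrank K V with hp
  have b : Basis (Fin p) K V := Module.finBasis K V
  have hp1 : 0 < p := by
    rw [hp]
    have : Nontrivial V := Submodule.nontrivial_iff_ne_bot.mpr hV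
    exact finrank_pos
  have hex : ∀ k : Fin p, ∃ u ∈ Syz V, ev x u = (b k : Pol K n) := by
    intro k
    have : (b k : Pol K n) ∈ (Syz V).map (ev x) := by rw [h]; exact (b k).2
    simpa [Submodule.mem_map] using this
  choose u hu hev using hex
  have hu1 : ∀ k j, u k j ∈ V := fun k j => (mem_Syz.mp (hu k)).1 j
  have hu2 : ∀ k, ∑ j, X j * u k j = 0 := fun k => (mem_Syz.mp (hu k)).2
  set c : Fin p → Fin n → Fin p → K := fun k j s => b.repr ⟨u k j, hu1 k j⟩ s with hc
  set r : Matrix (Fin p) (Fin p) (Pol K n) := Matrix.of (fun k s => ∑ j, C (c k j s) * X j) with hr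
  have hrk : ∀ k s, r k s = ∑ j, C (c k j s) * X j := fun _ _ => rfl
  set bb : Fin p → Pol K n := fun s => (b s : Pol K n) with hbb
  have hrepr : ∀ k j, u k j = ∑ s, C (c k j s) * bb s := by
    intro k j
    have h1 := b.sum_repr ⟨u k j, hu1 k j⟩
    have h2 := congrArg (Subtype.val) h1
    simp only [Submodule.coe_sum, Submodule.coe_smul] at h2
    rw [← h2]
    refine Finset.sum_congr rfl (fun s _ => ?_)
    rw [MvPolynomial.smul_eq_C_mul]
  have hmul : r.mulVec bb = 0 := by
    funext k
    simp only [Matrix.mulVec, dotProduct, Pi.zero_apply, hrk]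
    rw [← hu2 k]
    calc ∑ s, (∑ j, C (c k j s) * X j) * bb s
        = ∑ s, ∑ j, X j * (C (c k j s) * bb s) := by
          refine Finset.sum_congr rfl (fun s _ => ?_)
          rw [Finset.sum_mul]
          refine Finset.sum_congr rfl (fun j _ => ?_)
          ring
      _ = ∑ j, ∑ s, X j * (C (c k j s) * bb s) := Finset.sum_comm
      _ = ∑ j, X j * u k j := by
          refine Finset.sum_congr rfl (fun j _ => ?_)
          rw [hrepr k j, Finset.mul_sum]
  have hbb0 : bb ≠ 0 := by
    intro h0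
    have h1 : bb ⟨0, hp1⟩ = 0 := by rw [h0]; rfl
    have h2 : b ⟨0, hp1⟩ = 0 := Subtype.ext h1
    exact b.ne_zero _ h2
  have hdet : r.det = 0 := Matrix.exists_mulVec_eq_zero_iff.mp ⟨bb, hbb0, hmul⟩
  have heval : (MvPolynomial.eval x).mapMatrix r = 1 := by
    ext k s
    rw [RingHom.mapMatrix_apply, Matrix.map_apply, hrk]
    simp only [map_sum, map_mul, eval_C, eval_X]
    -- ∑ j, c k j s * x j = (b.repr (b k)) s
    have h1 : (∑ j, x j • (⟨u k j, hu1 k j⟩ : V)) = b k := by
      apply Subtype.ext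
      rw [← hev k, ev_apply]
      simp only [Submodule.coe_sum, Submodule.coe_smul]
    have h2 : b.repr (∑ j, x j • (⟨u k j, hu1 k j⟩ : V)) s = ∑ j, c k j s * x j := by
      rw [map_sum, Finsupp.finsetSum_apply]
      refine Finset.sum_congr rfl (fun j _ => ?_)
      rw [map_smul, Finsupp.smul_apply, smul_eq_mul, mul_comm]
    rw [← h2, h1, b.repr_self, Matrix.one_apply, Finsupp.single_apply]
  have h1 := RingHom.map_det (MvPolynomial.eval x) r
  rw [hdet, heval, Matrix.det_one, map_zero] at h1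
  exact zero_ne_one h1

end Vale.Agent.Lib.P200
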