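import Vale.Agent.Lib.P200.Reduction
import Vale.Agent.Lib.P200.NotSurj

/-!
# P200: a `p`-dimensional space of polynomials has at most `p choose 2` linear syzygies
-/

namespace Vale.Agent.Lib.P200

open Module MvPolynomial

variable {K : Type} [Field K] {n : ℕ}

lemma map_ev_le (V : Submodule K (Pol K n)) (y : Fin n → K) : (Syz V).map (ev y) ≤ V := by
  rintro _ ⟨v, hv, rfl⟩
  exact ev_mem hv y

lemma Syz_bot : Syz (⊥ : Submodule K (Pol K n)) = ⊥ := by
  rw [eq_bot_iff]
  intro v hv
  rw [mem_Syz] at hv
  rw [Submodule.mem_bot]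
  funext j
  simpa using hv.1 j

lemma add_choose_two (r : ℕ) : r + r.choose 2 = (r + 1).choose 2 := by
  rw [Nat.choose_succ_succ' r 1, Nat.choose_one_right]

theorem reduction_id [Infinite K] (V : Submodule K (Pol K n)) [FiniteDimensional K V]
    (x : Fin n → K)
    (hx : ∀ y : Fin n → K, ∃ Z : Finset K, ∀ t, t ∉ Z →
      finrank K ((Syz V).map (ev (x + t • y))) ≤ finrank K ((Syz V).map (ev x))) :
    finrank K (Syz V) ≤ finrank K ((Syz V).map (ev x))
      + finrank K (Syz ((Syz V).map (ev x))) := by
  have hIV : (Syz V).map (ev x) ≤ V := map_ev_le V x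
  have hred := reduction (LinearMap.id) V x (fun y => by simpa using hx y)
  have e1 : finrank K (Syz (V ⊓ Submodule.comap (LinearMap.id : Pol K n →ₗ[K] Pol K n)
      (Submodule.map (LinearMap.id ∘ₗ ev x) (Syz V))))
      = finrank K (Syz ((Syz V).map (ev x))) := by
    rw [LinearMap.id_comp, Submodule.comap_id, inf_eq_right.mpr hIV]
  have e2 : finrank K (Submodule.map ((LinearMap.id : Pol K n →ₗ[K] Pol K n) ∘ₗ ev x) (Syz V))
      = finrank K ((Syz V).map (ev x)) := by
    rw [LinearMap.id_comp]
  rw [e1, e2] at hred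
  exact hred

theorem finrank_Syz_le_aux [Infinite K] : ∀ (p : ℕ) (V : Submodule K (Pol K n))
    [FiniteDimensional K V], finrank K V = p → finrank K (Syz V) ≤ p.choose 2 := by
  intro p
  induction p using Nat.strong_induction_on with
  | _ p ih =>
    intro V _ hp
    by_cases hV : V = ⊥
    · subst hV
      rw [Syz_bot]
      simp
    · obtain ⟨x, hx⟩ := exists_max (fun y : Fin n → K => finrank K ((Syz V).map (ev y)))
        (finrank K V) (fun y => Submodule.finrank_mono (map_ev_le V y))
      have hIV : (Syz V).map (ev x) ≤ V := map_ev_le V x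
      have : FiniteDimensional K ((Syz V).map (ev x)) := Submodule.finiteDimensional_of_le hIV
      have hlt : finrank K ((Syz V).map (ev x)) < p := by
        rw [← hp]
        exact Submodule.finrank_lt_finrank_of_lt (lt_of_le_of_ne hIV (map_ev_ne V hV x))
      have hred := reduction_id V x (fun y => ⟨∅, fun t _ => hx (x + t • y)⟩)
      have h2 := ih (finrank K ((Syz V).map (ev x))) hlt ((Syz V).map (ev x)) rfl
      calc finrank K (Syz V)
          ≤ finrank K ((Syz V).map (ev x)) + finrank K (Syz ((Syz V).map (ev x))) := hred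
        _ ≤ finrank K ((Syz V).map (ev x)) + (finrank K ((Syz V).map (ev x))).choose 2 := by omega
        _ = (finrank K ((Syz V).map (ev x)) + 1).choose 2 := add_choose_two _
        _ ≤ p.choose 2 := Nat.choose_le_choose 2 hlt

theorem finrank_Syz_le [Infinite K] (V : Submodule K (Pol K n)) [FiniteDimensional K V] :
    finrank K (Syz V) ≤ (finrank K V).choose 2 :=
  finrank_Syz_le_aux _ V rfl

end Vale.Agent.Lib.P200
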