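import Vale.Agent.Lib.P200.GRed
import Vale.Agent.Lib.P200.GKey
import Vale.Agent.Lib.P200.GGrowth
import Vale.Agent.Lib.P200.LemmaC

/-!
# P200, mixed degrees: the bound for the linear syzygies modulo `E`
-/

namespace Vale.Agent.Lib.P200

open Module MvPolynomial

variable {K : Type} [Field K] {n : ℕ}

lemma map_evE_le (E V : Submodule K (Pol K n)) (y : Fin n → K) : (SyzE E V).map (ev y) ≤ V := by
  rintro _ ⟨v, hv, rfl⟩
  exact evE_mem hv y

theorem finrank_SyzE_le [Infinite K] {c e a : ℕ} (f : Fin c → Pol K n) (h : Fin e → Pol K n)
    (hLI : LinearIndependent K f) (hNL : NoLow a f h) :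
    ∀ (q : ℕ) (V : Submodule K (Pol K n)) [FiniteDimensional K V],
      Submodule.span K (Set.range f) ≤ V →
      finrank K (V.map (Submodule.span K (Set.range f)).mkQ) = q → q + 2 ≤ a →
      finrank K (SyzE (Submodule.span K (Set.range h)) V) ≤ (q + 1).choose 2 := by
  intro q
  induction q using Nat.strong_induction_on with
  | _ q ih =>
    intro V _ hFV hq hqa
    have hfinS : FiniteDimensional K (SyzE (Submodule.span K (Set.range h)) V) := finite_SyzE _ V
    have hle : ∀ y, (SyzE (Submodule.span K (Set.range h)) V).map
        ((Submodule.span K (Set.range f)).mkQ ∘ₗ ev y)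
        ≤ V.map (Submodule.span K (Set.range f)).mkQ := by
      intro y
      rw [Submodule.map_comp]
      exact Submodule.map_mono (map_evE_le _ V y)
    have hleq : ∀ y, finrank K ((SyzE (Submodule.span K (Set.range h)) V).map
        ((Submodule.span K (Set.range f)).mkQ ∘ₗ ev y)) ≤ q := by
      intro y
      rw [← hq]
      exact Submodule.finrank_mono (hle y)
    obtain ⟨x, hx⟩ := exists_max (fun y : Fin n → K =>
      finrank K ((SyzE (Submodule.span K (Set.range h)) V).map
        ((Submodule.span K (Set.range f)).mkQ ∘ₗ ev y))) q hleq
    rcases lt_or_eq_of_le (hleq x) with hlt | heq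
    · -- the generic rank is smaller than `q`: induction
      have hfin : FiniteDimensional K (V ⊓
          ((SyzE (Submodule.span K (Set.range h)) V).map
            ((Submodule.span K (Set.range f)).mkQ ∘ₗ ev x)).comap
            (Submodule.span K (Set.range f)).mkQ : Submodule K (Pol K n)) :=
        Submodule.finiteDimensional_of_le inf_le_left
      have hfinT : FiniteDimensional K (SyzE (Submodule.span K (Set.range h)) (V ⊓
          ((SyzE (Submodule.span K (Set.range h)) V).map
            ((Submodule.span K (Set.range f)).mkQ ∘ₗ ev x)).comap
            (Submodule.span K (Set.range f)).mkQ)) := finite_SyzE _ _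
      have hred := red_abs (Submodule.span K (Set.range f)).mkQ
        (SyzE (Submodule.span K (Set.range h)) V)
        (SyzE (Submodule.span K (Set.range h)) (V ⊓
          ((SyzE (Submodule.span K (Set.range h)) V).map
            ((Submodule.span K (Set.range f)).mkQ ∘ₗ ev x)).comap
            (Submodule.span K (Set.range f)).mkQ)) x
        (fun y => ⟨∅, fun t _ => hx _⟩)
        (by
          intro v hv _ hj
          rw [mem_SyzE] at hv ⊢
          exact ⟨fun j => ⟨hv.1 j, Submodule.mem_comap.mpr (hj j)⟩, hv.2⟩)
      have hFV' : Submodule.span K (Set.range f) ≤ V ⊓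
          ((SyzE (Submodule.span K (Set.range h)) V).map
            ((Submodule.span K (Set.range f)).mkQ ∘ₗ ev x)).comap
            (Submodule.span K (Set.range f)).mkQ := by
        refine le_inf hFV ?_
        intro w hw
        rw [Submodule.mem_comap]
        have h0 : (Submodule.span K (Set.range f)).mkQ w = 0 := by
          rw [Submodule.mkQ_apply]
          exact (Submodule.Quotient.mk_eq_zero _).mpr hw
        rw [h0]
        exact Submodule.zero_mem _
      have hmap : (V ⊓ ((SyzE (Submodule.span K (Set.range h)) V).map
            ((Submodule.span K (Set.range f)).mkQ ∘ₗ ev x)).comap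
            (Submodule.span K (Set.range f)).mkQ).map (Submodule.span K (Set.range f)).mkQ
          = (SyzE (Submodule.span K (Set.range h)) V).map
            ((Submodule.span K (Set.range f)).mkQ ∘ₗ ev x) := by
        apply le_antisymm
        · rintro _ ⟨w, hw, rfl⟩
          exact hw.2
        · intro u hu
          obtain ⟨w, hw, rfl⟩ := hle x hu
          exact ⟨w, ⟨hw, hu⟩, rfl⟩
      have h2 := ih _ hlt _ hFV' (by rw [hmap]) (by omega)
      have h3 := add_choose_two
        (finrank K ((SyzE (Submodule.span K (Set.range h)) V).map
          ((Submodule.span K (Set.range f)).mkQ ∘ₗ ev x)) + 1)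
      have h4 : (finrank K ((SyzE (Submodule.span K (Set.range h)) V).map
          ((Submodule.span K (Set.range f)).mkQ ∘ₗ ev x))
          + 1 + 1).choose 2 ≤ (q + 1).choose 2 := Nat.choose_le_choose 2 (by omega)
      omega
    · -- the generic rank is `q`: the key lemma applies
      have hfull : ∀ z, finrank K ((SyzE (Submodule.span K (Set.range h)) V).map
          ((Submodule.span K (Set.range f)).mkQ ∘ₗ ev z)) = q →
          (SyzE (Submodule.span K (Set.range h)) V).map
            ((Submodule.span K (Set.range f)).mkQ ∘ₗ ev z)
            = V.map (Submodule.span K (Set.range f)).mkQ := by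
        intro z hz
        exact Submodule.eq_of_le_of_finrank_eq (hle z) (by rw [hz, hq])
      have hrank : ∀ z,
          finrank K ((SyzE (Submodule.span K (Set.range h)) V).map
            ((Submodule.span K (Set.range f)).mkQ ∘ₗ ev z)) = q →
          finrank K ((SyzE (Submodule.span K (Set.range h)) V).map (ev z)) = q := by
        intro z hz
        have hinj : Function.Injective
            ((Submodule.span K (Set.range f)).mkQ.domRestrict
              ((SyzE (Submodule.span K (Set.range h)) V).map (ev z))) := by
          rw [← LinearMap.ker_eq_bot, LinearMap.ker_eq_bot']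
          rintro ⟨w, v, hv, rfl⟩ hw
          have h0 : (Submodule.span K (Set.range f)).mkQ (ev z v) = 0 := hw
          have h1 : ev z v ∈ Submodule.span K (Set.range f) := by
            rw [Submodule.mkQ_apply] at h0
            exact (Submodule.Quotient.mk_eq_zero _).mp h0
          have h2 := (key2 f h hLI hNL V hFV (by rw [hq]; exact hqa) z (hfull z hz) v hv h1).1
          exact Subtype.ext h2
        have h3 := LinearMap.finrank_range_of_inj hinj
        rw [LinearMap.range_domRestrict, ← Submodule.map_comp] at h3
        rw [← h3, hz]
      have hyp : ∀ y : Fin n → K, ∃ Z : Finset K, ∀ t, t ∉ Z →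
          finrank K ((SyzE (Submodule.span K (Set.range h)) V).map
            ((LinearMap.id : Pol K n →ₗ[K] Pol K n) ∘ₗ ev (x + t • y)))
          ≤ finrank K ((SyzE (Submodule.span K (Set.range h)) V).map
            ((LinearMap.id : Pol K n →ₗ[K] Pol K n) ∘ₗ ev x)) := by
        intro y
        obtain ⟨Z, hZ⟩ := semicont
          (((Submodule.span K (Set.range f)).mkQ ∘ₗ ev x).domRestrict
            (SyzE (Submodule.span K (Set.range h)) V))
          (((Submodule.span K (Set.range f)).mkQ ∘ₗ ev y).domRestrict
            (SyzE (Submodule.span K (Set.range h)) V))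
        refine ⟨Z, fun t ht => ?_⟩
        have h1 := hZ t ht
        have e : ((Submodule.span K (Set.range f)).mkQ ∘ₗ ev x).domRestrict
              (SyzE (Submodule.span K (Set.range h)) V)
            + t • ((Submodule.span K (Set.range f)).mkQ ∘ₗ ev y).domRestrict
              (SyzE (Submodule.span K (Set.range h)) V)
            = ((Submodule.span K (Set.range f)).mkQ ∘ₗ ev (x + t • y)).domRestrict
              (SyzE (Submodule.span K (Set.range h)) V) := by
          refine LinearMap.ext fun v => ?_
          simp [ev_add_smul, LinearMap.domRestrict_apply]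
        rw [e, LinearMap.range_domRestrict, LinearMap.range_domRestrict, heq] at h1
        have h2 : finrank K ((SyzE (Submodule.span K (Set.range h)) V).map
            ((Submodule.span K (Set.range f)).mkQ ∘ₗ ev (x + t • y))) = q :=
          le_antisymm (hleq _) h1
        rw [LinearMap.id_comp, LinearMap.id_comp, hrank _ h2, hrank _ heq]
      have hfinI : FiniteDimensional K ((SyzE (Submodule.span K (Set.range h)) V).map (ev x)) :=
        Submodule.finiteDimensional_of_le (map_evE_le _ V x)
      have hfinT : FiniteDimensional K
          (Syz ((SyzE (Submodule.span K (Set.range h)) V).map (ev x))) := finite_Syz _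
      have hred := red_abs (LinearMap.id : Pol K n →ₗ[K] Pol K n)
        (SyzE (Submodule.span K (Set.range h)) V)
        (Syz ((SyzE (Submodule.span K (Set.range h)) V).map (ev x))) x hyp
        (by
          intro v hv h0 hj
          have h0' : ev x v = 0 := h0
          have hmu := (key2 f h hLI hNL V hFV (by rw [hq]; exact hqa) x (hfull x heq) v hv
            (by rw [h0']; exact Submodule.zero_mem _)).2
          rw [mu_apply] at hmu
          rw [mem_Syz]
          refine ⟨fun j => ?_, hmu⟩
          have := hj j
          rw [LinearMap.id_comp] at this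
          exact this)
      have e2 : finrank K ((SyzE (Submodule.span K (Set.range h)) V).map
          ((LinearMap.id : Pol K n →ₗ[K] Pol K n) ∘ₗ ev x)) = q := by
        rw [LinearMap.id_comp]
        exact hrank x heq
      have h3 := finrank_Syz_le ((SyzE (Submodule.span K (Set.range h)) V).map (ev x))
      rw [hrank x heq] at h3
      rw [e2] at hred
      have h4 := add_choose_two q
      omega

end Vale.Agent.Lib.P200
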