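import Vale.Agent.Lib.P200.LinAlg

/-!
# P200: pencils of bounded rank
-/

namespace Vale.Agent.Lib.P200

open Module

variable {K E W : Type*} [Field K] [AddCommGroup E] [Module K E] [AddCommGroup W] [Module K W]

/-- If the rank of `A + t B` does not exceed the rank of `A` (for all `t` outside a finite set)
then `B` maps `ker A` into `range A`.
Proof: suppose `A v = 0` and `B v ∉ range A`.  On `E × K` put `A' (e, s) = A e + s • B v` and
`B' (e, s) = B e`.  Then `range A' = range A ⊔ span {B v}` has `finrank (range A) + 1`, and for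
`t ≠ 0`: `(A' + t B') (e, s) = (A + t B) (e + (s / t) • v)`, so
`range (A' + t B') ≤ range (A + t B)`.  Apply `semicont` to `A', B'` and choose
`t ∉ Z ∪ Z' ∪ {0}` (`Infinite.exists_notMem_finset`). -/
theorem bounded_rank [Infinite K] [FiniteDimensional K E] (A B : E →ₗ[K] W) (Z : Finset K)
    (h : ∀ t, t ∉ Z →
      finrank K (LinearMap.range (A + t • B)) ≤ finrank K (LinearMap.range A))
    (v : E) (hv : A v = 0) : B v ∈ LinearMap.range A := by
  classical
  by_contra hB
  let A' : E × K →ₗ[K] W := A.coprod (LinearMap.toSpanSingleton K W (B v))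
  let B' : E × K →ₗ[K] W := B.comp (LinearMap.fst K E K)
  have hA' : ∀ p : E × K, A' p = A p.1 + p.2 • B v := by
    intro p
    simp [A', LinearMap.coprod_apply, LinearMap.toSpanSingleton_apply]
  have hB' : ∀ p : E × K, B' p = B p.1 := fun p => rfl
  obtain ⟨Z', hZ'⟩ := semicont A' B'
  obtain ⟨t, ht⟩ := Infinite.exists_notMem_finset (Z ∪ Z' ∪ {0})
  have htZ : t ∉ Z := fun hh => ht (by simp [hh])
  have htZ' : t ∉ Z' := fun hh => ht (by simp [hh])
  have ht0 : t ≠ 0 := fun hh => ht (by simp [hh])
  -- the range of `A'` is strictly larger than that of `A`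
  have hlt : LinearMap.range A < LinearMap.range A' := by
    refine lt_of_le_of_ne ?_ ?_
    · rintro _ ⟨e, rfl⟩
      exact ⟨(e, 0), by rw [hA']; simp⟩
    · intro heq
      apply hB
      rw [heq]
      exact ⟨(0, 1), by rw [hA']; simp⟩
  have h1 : finrank K (LinearMap.range A) < finrank K (LinearMap.range A') :=
    Submodule.finrank_lt_finrank_of_lt hlt
  have h2 := hZ' t htZ'
  have hle : LinearMap.range (A' + t • B') ≤ LinearMap.range (A + t • B) := by
    rintro _ ⟨p, rfl⟩
    refine ⟨p.1 + (p.2 / t) • v, ?_⟩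
    have e1 : (A + t • B) (p.1 + (p.2 / t) • v)
        = A p.1 + t • B p.1 + (t * (p.2 / t)) • B v := by
      simp only [LinearMap.add_apply, LinearMap.smul_apply, map_add, map_smul, hv]
      rw [zero_add, smul_smul, mul_comm t (p.2 / t)]
    have e2 : (A' + t • B') p = A p.1 + p.2 • B v + t • B p.1 := by
      simp only [LinearMap.add_apply, LinearMap.smul_apply, hA', hB']
    rw [e1, e2, mul_div_cancel₀ _ ht0]
    abel
  have h3 : finrank K (LinearMap.range (A' + t • B')) ≤ finrank K (LinearMap.range (A + t • B)) :=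
    Submodule.finrank_mono hle
  have h4 := h t htZ
  omega

end Vale.Agent.Lib.P200
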