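import Vale.Agent.Lib.P200.GDefs
import Vale.Agent.Lib.P200.LinAlg2

/-!
# P200, mixed degrees: the abstract reduction step
-/

namespace Vale.Agent.Lib.P200

open Module MvPolynomial

variable {K : Type} [Field K] {n : ℕ}

theorem red_abs [Infinite K] {W : Type} [AddCommGroup W] [Module K W]
    (φ : Pol K n →ₗ[K] W) (S T : Submodule K (Fin n → Pol K n)) [FiniteDimensional K S]
    [FiniteDimensional K T] (x : Fin n → K)
    (hx : ∀ y : Fin n → K, ∃ Z : Finset K, ∀ t, t ∉ Z →
      finrank K (S.map (φ ∘ₗ ev (x + t • y))) ≤ finrank K (S.map (φ ∘ₗ ev x)))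
    (hT : ∀ v ∈ S, φ (ev x v) = 0 → (∀ j, φ (v j) ∈ S.map (φ ∘ₗ ev x)) → v ∈ T) :
    finrank K S ≤ finrank K (S.map (φ ∘ₗ ev x)) + finrank K T := by
  have hkey : ∀ (y : Fin n → K) (v : S), (φ ∘ₗ ev x).domRestrict S v = 0 →
      (φ ∘ₗ ev y).domRestrict S v ∈ LinearMap.range ((φ ∘ₗ ev x).domRestrict S) := by
    intro y v hv
    obtain ⟨Z, hZ⟩ := hx y
    refine bounded_rank _ _ Z ?_ v hv
    intro t ht
    have e : (φ ∘ₗ ev x).domRestrict S + t • (φ ∘ₗ ev y).domRestrict S
        = (φ ∘ₗ ev (x + t • y)).domRestrict S := by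
      refine LinearMap.ext fun v => ?_
      simp [ev_add_smul, LinearMap.domRestrict_apply]
    rw [e, LinearMap.range_domRestrict, LinearMap.range_domRestrict]
    exact hZ t ht
  have hsub : (LinearMap.ker ((φ ∘ₗ ev x).domRestrict S)).map S.subtype ≤ T := by
    rintro _ ⟨v, hv, rfl⟩
    have hv0 : (φ ∘ₗ ev x).domRestrict S v = 0 := hv
    refine hT _ v.2 hv0 (fun j => ?_)
    have h1 := hkey (Pi.single j 1) v hv0
    rw [LinearMap.range_domRestrict] at h1
    have h2 : (φ ∘ₗ ev (Pi.single j (1 : K))).domRestrict S v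
        = φ ((v : Fin n → Pol K n) j) := by
      rw [LinearMap.domRestrict_apply, LinearMap.comp_apply, ev_single]
    rw [h2] at h1
    exact h1
  have h3 := LinearMap.finrank_range_add_finrank_ker ((φ ∘ₗ ev x).domRestrict S)
  rw [LinearMap.range_domRestrict] at h3
  have h4 := Submodule.finrank_mono hsub
  rw [Submodule.finrank_map_subtype_eq] at h4
  omega

end Vale.Agent.Lib.P200
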