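import Mathlib

/-!
# P200: the graded pieces `J_d` of the lex-plus-powers space, for equal degrees

`P = (x_1^a, ..., x_c^a)` in `K[x_1, ..., x_n]` (variables indexed by `Fin n`, so `x_1` is `X 0`).
-/

namespace Vale.Agent.Lib.P200

open Module MvPolynomial

/-- the ideal `P = (x_1^a, ..., x_c^a)` -/
noncomputable def PowIdeal (K : Type) [Field K] (n c a : ℕ) : Ideal (MvPolynomial (Fin n) K) :=
  Ideal.span {p | ∃ i : Fin n, i.val < c ∧ p = X i ^ a}

/-- the space `I_d` of forms of degree `d` in the ideal `I` -/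
noncomputable def part {K : Type} [Field K] {n : ℕ} (I : Ideal (MvPolynomial (Fin n) K)) (d : ℕ) :
    Submodule K (MvPolynomial (Fin n) K) :=
  I.restrictScalars K ⊓ homogeneousSubmodule (Fin n) K d

/-- `m` is the exponent vector of a monomial of degree `d` outside `P` -/
def Out (n c a d : ℕ) (m : Fin n →₀ ℕ) : Prop :=
  m.degree = d ∧ ∀ i : Fin n, i.val < c → m i < a

/-- `x^m' > x^m` in the lexicographic order with `x_1 > ... > x_n` -/
def LexGT {n : ℕ} (m' m : Fin n →₀ ℕ) : Prop :=
  ∃ i : Fin n, (∀ l : Fin n, l < i → m' l = m l) ∧ m i < m' i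

/-- `q_d = dim I_d - dim P_d` -/
noncomputable def qd {K : Type} [Field K] {n : ℕ} (I : Ideal (MvPolynomial (Fin n) K))
    (c a d : ℕ) : ℕ :=
  finrank K (part I d) - finrank K (part (PowIdeal K n c a) d)

/-- `J_d`: the span of `P_d` and of the `q_d` lexicographically greatest monomials of degree `d`
outside `P` (a monomial is among the `q` greatest iff fewer than `q` of them are greater) -/
noncomputable def Jd {K : Type} [Field K] {n : ℕ} (I : Ideal (MvPolynomial (Fin n) K))
    (c a d : ℕ) : Submodule K (MvPolynomial (Fin n) K) :=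
  part (PowIdeal K n c a) d ⊔
    Submodule.span K {p | ∃ m : Fin n →₀ ℕ, Out n c a d m ∧
      {m' : Fin n →₀ ℕ | Out n c a d m' ∧ LexGT m' m}.ncard < qd I c a d ∧ p = monomial m 1}

end Vale.Agent.Lib.P200
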