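import Vale.Agent.Lib.P200.Main
import Vale.Agent.Lib.P200.Final
import Vale.Agent.Lib.P200.LPPDefs

/-!
# P200: the first growth step, in terms of `part`
-/

namespace Vale.Agent.Lib.P200

open Module MvPolynomial

theorem finite_part {K : Type} [Field K] {n : ℕ} (I : Ideal (MvPolynomial (Fin n) K)) (d : ℕ) :
    FiniteDimensional K (part I d) := by
  have hfa : FiniteDimensional K (homogeneousSubmodule (Fin n) K d) := finite_homog d
  exact Submodule.finiteDimensional_of_le (inf_le_right : part I d ≤ _)

theorem X_mul_mem_part {K : Type} [Field K] {n : ℕ} (I : Ideal (MvPolynomial (Fin n) K)) (d : ℕ)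
    (v : MvPolynomial (Fin n) K) (hv : v ∈ part I d) (j : Fin n) : X j * v ∈ part I (d + 1) := by
  refine ⟨I.mul_mem_left _ hv.1, ?_⟩
  have h4 : (X j * v : MvPolynomial (Fin n) K).IsHomogeneous (1 + d) :=
    (isHomogeneous_X K j).mul hv.2
  rw [add_comm] at h4
  exact h4

theorem span_le_part {K : Type} [Field K] {n c a : ℕ}
    (f : Fin c → MvPolynomial (Fin n) K) (hf : ∀ i, (f i).IsHomogeneous a)
    (I : Ideal (MvPolynomial (Fin n) K)) (hfI : ∀ i, f i ∈ I) :
    Submodule.span K (Set.range f) ≤ part I a := by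
  rw [Submodule.span_le]
  rintro _ ⟨i, rfl⟩
  exact ⟨hfI i, hf i⟩

theorem first_growth_step {K : Type} [Field K] [Infinite K] {n c a q : ℕ}
    (f : Fin c → MvPolynomial (Fin n) K) (hf : ∀ i, (f i).IsHomogeneous a) (hreg : IsRegSeq f)
    (I : Ideal (MvPolynomial (Fin n) K)) (hfI : ∀ i, f i ∈ I)
    (hq : finrank K (part I a) = c + q) (hqa : q + 2 ≤ a) :
    n * (c + q) ≤ finrank K (part I (a + 1)) + (q + 1).choose 2 := by
  have hV : FiniteDimensional K (part I a) := finite_part I a
  have hU : FiniteDimensional K (part I (a + 1)) := finite_part I (a + 1)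
  have hFV := span_le_part f hf I hfI
  have h1 := finrank_map_mkQ f hf hreg (by omega) _ hFV hq
  have h2 := finrank_Syz_le_of_reg f hf hreg q _ hFV h1 hqa
  have h3 := growth (part I a) (part I (a + 1)) (fun v hv j => X_mul_mem_part I a v hv j)
  rw [hq] at h3
  exact le_trans h3 (Nat.add_le_add_left h2 _)

theorem le_finrank_part {K : Type} [Field K] {n c a : ℕ}
    (f : Fin c → MvPolynomial (Fin n) K) (hf : ∀ i, (f i).IsHomogeneous a) (hreg : IsRegSeq f)
    (ha : 0 < a) (I : Ideal (MvPolynomial (Fin n) K)) (hfI : ∀ i, f i ∈ I) :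
    c ≤ finrank K (part I a) := by
  have hV : FiniteDimensional K (part I a) := finite_part I a
  have hF : finrank K (Submodule.span K (Set.range f)) = c := by
    rw [finrank_span_eq_card (linearIndependent_of_reg f hf hreg ha)]
    simp
  rw [← hF]
  exact Submodule.finrank_mono (span_le_part f hf I hfI)

end Vale.Agent.Lib.P200
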