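import Vale.Agent.Lib.P200.LPPDefs
import Vale.Agent.Lib.P200.LPP0
import Vale.Agent.Lib.P200.LPP5
import Vale.Agent.Lib.P200.LPP6

/-!
# P200: the number of monomials of degree `a + 1` outside `P` above `x_1^(a-1) x_k x_j`
-/

namespace Vale.Agent.Lib.P200

/-- Let `g (k', j') = single 0 (a - 1) + single k' 1 + single j' 1`, `m0 = g (k, j)` and let `R` be
the finset of pairs of `card_pairs`.  If `m'` is `Out` and `LexGT m' m0` with index `i`, then
`i ≠ 0` (else `a - 1 < m' 0 < a`), so `m' 0 = a - 1` and `decomp` gives `m' = g (k', j')` with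
`1 ≤ k' ≤ j'`.  Moreover `k' ≤ min k j ≤ q`: otherwise `m'` vanishes at all indices
`1 ≤ l ≤ min k j`, while `m0 (min k j) ≥ 1`; this contradicts `LexGT m' m0`.  Also `m' ≠ m0`.
So the set is contained in `(R.image g).erase m0`, and `m0 ∈ R.image g` (it is `g (k, j)` or
`g (j, k)`), so its `ncard` is `≤ (R.image g).card - 1 ≤ R.card - 1` (`Finset.card_image_le`,
`Finset.card_erase_of_mem`, `Set.ncard_le_ncard`, `Set.ncard_coe_finset`). -/
theorem above_count (n c a q : ℕ) (hc : 1 ≤ c) (ha : 1 ≤ a) (hq : q ≤ n)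
    (k j : Fin (n + 1)) (hk : 1 ≤ k.val) (hkq : k.val ≤ q) (hj : 1 ≤ j.val) :
    {m' : Fin (n + 1) →₀ ℕ | Out (n + 1) c a (a + 1) m' ∧
      LexGT m' (Finsupp.single 0 (a - 1) + Finsupp.single k 1 + Finsupp.single j 1)}.ncard
      + 1 + (q + 1).choose 2 ≤ (n + 1) * q := by
  classical
  set g : Fin (n + 1) × Fin (n + 1) → (Fin (n + 1) →₀ ℕ) := fun p =>
    Finsupp.single 0 (a - 1) + Finsupp.single p.1 1 + Finsupp.single p.2 1 with hg
  set m0 : Fin (n + 1) →₀ ℕ :=
    Finsupp.single 0 (a - 1) + Finsupp.single k 1 + Finsupp.single j 1 with hm0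
  set R := Finset.univ.filter (fun p : Fin (n + 1) × Fin (n + 1) =>
      1 ≤ p.1.val ∧ p.1.val ≤ q ∧ p.1 ≤ p.2) with hR
  have hcard : R.card + (q + 1).choose 2 = (n + 1) * q := card_pairs n q hq
  have hval0 : ∀ l : Fin (n + 1), m0 l = (if (0 : Fin (n + 1)) = l then a - 1 else 0)
      + (if k = l then 1 else 0) + (if j = l then 1 else 0) := by
    intro l
    rw [hm0]
    simp only [Finsupp.add_apply, Finsupp.single_apply]
  have hk0 : k ≠ 0 := by
    intro h
    rw [h] at hk
    simp at hk
  have hj0 : j ≠ 0 := by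
    intro h
    rw [h] at hj
    simp at hj
  have hm00 : m0 0 = a - 1 := by
    rw [hval0]
    simp [hk0, hj0]
  have hmem : m0 ∈ R.image g := by
    rw [Finset.mem_image]
    rcases le_total k j with h | h
    · refine ⟨(k, j), ?_, rfl⟩
      rw [hR, Finset.mem_filter]
      exact ⟨Finset.mem_univ _, hk, hkq, h⟩
    · refine ⟨(j, k), ?_, ?_⟩
      · rw [hR, Finset.mem_filter]
        exact ⟨Finset.mem_univ _, hj, le_trans (Fin.le_def.1 h) hkq, h⟩
      · simp only [hg, hm0]
        rw [add_right_comm]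
  have hsub : {m' : Fin (n + 1) →₀ ℕ | Out (n + 1) c a (a + 1) m' ∧ LexGT m' m0} ⊆
      ↑((R.image g).erase m0) := by
    rintro m' ⟨⟨hdeg, hlt⟩, i, hi1, hi2⟩
    have hi0 : i ≠ 0 := by
      intro h
      rw [h, hm00] at hi2
      have h1 := hlt 0 (by
        have h0 : ((0 : Fin (n + 1)) : ℕ) = 0 := rfl
        omega)
      omega
    have hipos : (0 : Fin (n + 1)) < i := Fin.pos_iff_ne_zero.2 hi0
    have hm'0 : m' 0 = a - 1 := by rw [hi1 0 hipos, hm00]
    obtain ⟨k', j', hk', hkj', hm'⟩ := decomp n a ha m' hdeg hm'0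
    have hval : ∀ l : Fin (n + 1), m' l = (if (0 : Fin (n + 1)) = l then a - 1 else 0)
        + (if k' = l then 1 else 0) + (if j' = l then 1 else 0) := by
      intro l
      rw [hm']
      simp only [Finsupp.add_apply, Finsupp.single_apply]
    have hkq' : k'.val ≤ q := by
      by_contra hcon
      have hμ1 : 1 ≤ (min k j).val := by
        rcases min_choice k j with h | h
        · rw [h]; exact hk
        · rw [h]; exact hj
      have hμk : (min k j).val ≤ k.val := Fin.le_def.1 (min_le_left k j)
      have hμlt : min k j < k' := by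
        rw [Fin.lt_def]
        omega
      have hz : ∀ l : Fin (n + 1), 1 ≤ l.val → l < k' → m' l = 0 := by
        intro l hl1 hl2
        rw [hval]
        have h1 : (0 : Fin (n + 1)) ≠ l := by
          intro h
          rw [← h] at hl1
          simp at hl1
        have h2 : k' ≠ l := ne_of_gt hl2
        have h3 : j' ≠ l := ne_of_gt (lt_of_lt_of_le hl2 hkj')
        simp [h1, h2, h3]
      have hm0μ : 1 ≤ m0 (min k j) := by
        rw [hval0]
        rcases min_choice k j with h | h
        · rw [h, if_pos rfl]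
          omega
        · rw [h, if_pos (rfl : j = j)]
          omega
      rcases lt_trichotomy i (min k j) with h | h | h
      · have h1 : 1 ≤ i.val := by
          have h0 := Fin.lt_def.1 hipos
          have h00 : ((0 : Fin (n + 1)) : ℕ) = 0 := rfl
          omega
        have h2 := hz i h1 (lt_trans h hμlt)
        omega
      · have h2 := hz (min k j) hμ1 hμlt
        rw [h] at hi2
        omega
      · have h1 := hi1 (min k j) h
        have h2 := hz (min k j) hμ1 hμlt
        omega
    rw [Finset.mem_coe, Finset.mem_erase]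
    refine ⟨?_, ?_⟩
    · intro h
      rw [h] at hi2
      exact lt_irrefl _ hi2
    · rw [Finset.mem_image]
      refine ⟨(k', j'), ?_, hm'.symm⟩
      rw [hR, Finset.mem_filter]
      exact ⟨Finset.mem_univ _, hk', hkq', hkj'⟩
  have h1 : {m' : Fin (n + 1) →₀ ℕ | Out (n + 1) c a (a + 1) m' ∧ LexGT m' m0}.ncard
      ≤ ((R.image g).erase m0).card := by
    have h := Set.ncard_le_ncard hsub (Finset.finite_toSet _)
    rwa [Set.ncard_coe_finset] at h
  have h2 := Finset.card_erase_of_mem hmem
  have h3 : (R.image g).card ≤ R.card := Finset.card_image_le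
  have h4 : 0 < (R.image g).card := Finset.card_pos.2 ⟨_, hmem⟩
  omega

end Vale.Agent.Lib.P200
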