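import Mathlib

/-!
# P200: rank of a pencil of linear maps `A + t B` (abstract linear algebra)
-/

namespace Vale.Agent.Lib.P200

open Module

variable {K E W : Type*} [Field K] [AddCommGroup E] [Module K E] [AddCommGroup W] [Module K W]

/-- Lower semicontinuity of the rank along a line.
Proof: let `E'` be a complement of `ker A` (`Submodule.exists_isCompl`), so `A` is injective on `E'`
and `finrank E' = finrank (range A)`.  Let `φ : W → E'` be a left inverse of `A ∘ E'.subtype`
(`LinearMap.exists_leftInverse_of_injective`) and `C = φ ∘ B ∘ E'.subtype : End E'`.  Take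
`Z = {t | t ≠ 0 ∧ C has the eigenvalue -t⁻¹}`, finite because `C` has finitely many eigenvalues
(`Module.End.finite_hasEigenvalue`) and `t ↦ -t⁻¹` is injective.  If `t ∉ Z` and `w ∈ E'` with
`(A + t B) w = 0` then `w + t C w = 0`, so `w = 0`; hence `A + t B` is injective on `E'` and
`finrank E' ≤ finrank (range (A + t B))` (`LinearMap.finrank_range_of_inj`,
`Submodule.finrank_mono`). -/
theorem semicont [FiniteDimensional K E] (A B : E →ₗ[K] W) :
    ∃ Z : Finset K, ∀ t, t ∉ Z →
      finrank K (LinearMap.range A) ≤ finrank K (LinearMap.range (A + t • B)) := by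
  classical
  obtain ⟨E', hE'⟩ := Submodule.exists_isCompl (LinearMap.ker A)
  have hker : LinearMap.ker (A ∘ₗ E'.subtype) = ⊥ := by
    rw [LinearMap.ker_eq_bot']
    intro w hw
    have h1 : (w : E) ∈ LinearMap.ker A := hw
    have h2 : (w : E) ∈ LinearMap.ker A ⊓ E' := ⟨h1, w.2⟩
    rw [hE'.inf_eq_bot, Submodule.mem_bot] at h2
    exact Subtype.ext h2
  have hrank : finrank K (LinearMap.range A) = finrank K E' := by
    have h1 := LinearMap.finrank_range_add_finrank_ker A
    have h2 := Submodule.finrank_add_eq_of_isCompl hE'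
    omega
  obtain ⟨φ, hφ⟩ := LinearMap.exists_leftInverse_of_injective (A ∘ₗ E'.subtype) hker
  set C : Module.End K E' := φ ∘ₗ B ∘ₗ E'.subtype with hC
  have hfin : Set.Finite {μ : K | C.HasEigenvalue μ} := Module.End.finite_hasEigenvalue C
  have hinj : Function.Injective (fun t : K => -t⁻¹) := by
    intro a b hab
    exact inv_injective (neg_injective hab)
  have hZ : ((fun t : K => -t⁻¹) ⁻¹' {μ : K | C.HasEigenvalue μ}).Finite :=
    hfin.preimage hinj.injOn
  refine ⟨hZ.toFinset, fun t ht => ?_⟩
  have ht' : ¬ C.HasEigenvalue (-t⁻¹) := by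
    intro h
    apply ht
    rw [Set.Finite.mem_toFinset]
    exact h
  have hinjt : Function.Injective ((A + t • B) ∘ₗ E'.subtype) := by
    rw [← LinearMap.ker_eq_bot, LinearMap.ker_eq_bot']
    intro w hw
    have h1 : A (w : E) + t • B (w : E) = 0 := by
      simpa using hw
    have h2 : φ (A (w : E)) = w := by
      have := LinearMap.congr_fun hφ w
      simpa using this
    have h3 : w + t • C w = 0 := by
      have h4 := congrArg φ h1
      rw [map_add, map_smul, map_zero, h2] at h4
      exact h4
    by_contra hw0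
    by_cases ht0 : t = 0
    · rw [ht0, zero_smul, add_zero] at h3
      exact hw0 h3
    · apply ht'
      refine Module.End.hasEigenvalue_of_hasEigenvector (x := w) ⟨?_, hw0⟩
      rw [Module.End.mem_eigenspace_iff]
      have h5 : t • C w = -w := by
        rw [eq_neg_iff_add_eq_zero, add_comm]
        exact h3
      calc C w = t⁻¹ • (t • C w) := by rw [smul_smul, inv_mul_cancel₀ ht0, one_smul]
        _ = (-t⁻¹) • w := by rw [h5, smul_neg, neg_smul]
  rw [hrank, ← LinearMap.finrank_range_of_inj hinjt]
  exact Submodule.finrank_mono (LinearMap.range_comp_le_range _ _)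

/-- a bounded function with values in `ℕ` has a maximum (`Nat.sSup_mem`) -/
theorem exists_max {X : Type*} [Nonempty X] (r : X → ℕ) (N : ℕ) (h : ∀ x, r x ≤ N) :
    ∃ x, ∀ y, r y ≤ r x := by
  have hne : (Set.range r).Nonempty := Set.range_nonempty r
  have hbd : BddAbove (Set.range r) := ⟨N, by rintro _ ⟨x, rfl⟩; exact h x⟩
  obtain ⟨x, hx⟩ := Nat.sSup_mem hne hbd
  exact ⟨x, fun y => by rw [hx]; exact le_csSup hbd ⟨y, rfl⟩⟩

end Vale.Agent.Lib.P200
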