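import Vale.Agent.Lib.P200.Defs
import Vale.Agent.Lib.P200.LinAlg2

/-!
# P200: the reduction step for spaces of linear syzygies
-/

namespace Vale.Agent.Lib.P200

open Module MvPolynomial

variable {K : Type} [Field K] {n : ℕ}

/-- `v ↦ (j ↦ ⟨v j, _⟩)` is an injective linear map `Syz V → (Fin n → V)`
(`Module.Finite.of_injective` / `FiniteDimensional.of_injective`) -/
theorem finite_Syz (V : Submodule K (Pol K n)) [FiniteDimensional K V] :
    FiniteDimensional K (Syz V) := by
  let g : Syz V →ₗ[K] (Fin n → V) :=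
    { toFun := fun v j => ⟨v.1 j, (mem_Syz.mp v.2).1 j⟩
      map_add' := fun a b => by
        funext j
        rfl
      map_smul' := fun c a => by
        funext j
        rfl }
  have hg : Function.Injective g := by
    intro a b hab
    apply Subtype.ext
    funext j
    have := congrFun hab j
    exact congrArg Subtype.val this
  exact Module.Finite.of_injective g hg

/-- Reduction step.  Let `E = Syz V`, `A y = (φ ∘ ev y).domRestrict E`, so
`range (A y) = E.map (φ ∘ ev y)` (`LinearMap.range_domRestrict`) and `A (x + t y) = A x + t A y`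
(`ev_add_smul`).  By `bounded_rank`, every `v ∈ E` with `φ (ev x v) = 0` satisfies
`φ (ev y v) ∈ I := E.map (φ ∘ ev x)` for all `y`; with `y = Pi.single j 1` (`ev_single`):
`φ (v j) ∈ I`.  So `(ker (A x)).map E.subtype ≤ Syz (V ⊓ I.comap φ)`, and
`finrank E = finrank (range (A x)) + finrank (ker (A x))`
(`LinearMap.finrank_range_add_finrank_ker`, `Submodule.finrank_map_subtype_eq`,
`Submodule.finrank_mono`, `finite_Syz`). -/
theorem reduction [Infinite K] {W : Type} [AddCommGroup W] [Module K W]
    (φ : Pol K n →ₗ[K] W) (V : Submodule K (Pol K n)) [FiniteDimensional K V] (x : Fin n → K)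
    (hx : ∀ y : Fin n → K, ∃ Z : Finset K, ∀ t, t ∉ Z →
      finrank K ((Syz V).map (φ ∘ₗ ev (x + t • y))) ≤ finrank K ((Syz V).map (φ ∘ₗ ev x))) :
    finrank K (Syz V) ≤ finrank K ((Syz V).map (φ ∘ₗ ev x))
      + finrank K (Syz (V ⊓ ((Syz V).map (φ ∘ₗ ev x)).comap φ)) := by
  classical
  have := finite_Syz V
  let A : (Fin n → K) → (Syz V →ₗ[K] W) := fun y => (φ ∘ₗ ev y).domRestrict (Syz V)
  have hA : ∀ y (v : Syz V), A y v = φ (ev y v.1) := fun y v => rfl
  have hrange : ∀ y, LinearMap.range (A y) = (Syz V).map (φ ∘ₗ ev y) :=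
    fun y => LinearMap.range_domRestrict _ _
  have hadd : ∀ (y : Fin n → K) (t : K), A (x + t • y) = A x + t • A y := by
    intro y t
    refine LinearMap.ext fun v => ?_
    simp only [LinearMap.add_apply, LinearMap.smul_apply, hA, ev_add_smul, map_add, map_smul]
  have key : ∀ v : Syz V, A x v = 0 → ∀ y, A y v ∈ (Syz V).map (φ ∘ₗ ev x) := by
    intro v hv y
    obtain ⟨Z, hZ⟩ := hx y
    have h := bounded_rank (A x) (A y) Z (by
      intro t ht
      rw [← hadd, hrange, hrange]
      exact hZ t ht) v hv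
    rwa [hrange] at h
  have hker : (LinearMap.ker (A x)).map (Syz V).subtype
      ≤ Syz (V ⊓ ((Syz V).map (φ ∘ₗ ev x)).comap φ) := by
    rintro _ ⟨v, hv, rfl⟩
    rw [mem_Syz]
    have hvE := mem_Syz.mp v.2
    refine ⟨fun j => ⟨hvE.1 j, ?_⟩, hvE.2⟩
    have h := key v hv (Pi.single j 1)
    rw [hA, ev_single] at h
    exact h
  have : FiniteDimensional K (V ⊓ ((Syz V).map (φ ∘ₗ ev x)).comap φ : Submodule K (Pol K n)) :=
    Submodule.finiteDimensional_inf_left _ _
  have := finite_Syz (V ⊓ ((Syz V).map (φ ∘ₗ ev x)).comap φ)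
  have h1 := LinearMap.finrank_range_add_finrank_ker (A x)
  have h2 : finrank K (LinearMap.ker (A x))
      ≤ finrank K (Syz (V ⊓ ((Syz V).map (φ ∘ₗ ev x)).comap φ)) := by
    rw [← Submodule.finrank_map_subtype_eq (Syz V) (LinearMap.ker (A x))]
    exact Submodule.finrank_mono hker
  rw [hrange] at h1
  omega

end Vale.Agent.Lib.P200
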